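import Crest.Agent.R166.G.H2a

/-! Row 166, block G: the partial-inversion symmetry `H2` for the GOE, and `stG`. -/

set_option autoImplicit false
set_option linter.unusedSectionVars false

open MeasureTheory ProbabilityTheory Filter Topology Complex
open scoped BigOperators Matrix ComplexConjugate ENNReal
open Crest.ProbabilityR.RandomMatrix

noncomputable section

namespace Crest.Agent.R166

variable {ι : Type} [Fintype ι] [DecidableEq ι] {n : ℕ}

/-- the frame whose column `o` is the first basis vector -/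
def gG0 (o : ι) (y : Fin (n + 1) → ι → ℝ) : Matrix (Fin (n + 1)) ι ℝ := Matrix.of fun i a =>
  if i = 0 then (if a = o then 1 else 0) else if a = o then 0 else y i a / √(n + 1 : ℕ)

/-- the frame of the minor: column `o` is the first column of the matrix -/
def gG1 (o : ι) (p : GOEDisorder (n + 1) × (Fin (n + 1) → ι → ℝ)) : Matrix (Fin n) ι ℝ := Matrix.of fun i a =>
  (if a = o then p.1 0 i.succ else p.2 i.succ a) / √(n + 1 : ℕ)

/-- the `K`-matrix of the minor -/
def gK1 (o : ι) (E : ℝ) (p : GOEDisorder (n + 1) × (Fin (n + 1) → ι → ℝ)) : Matrix ι ι ℝ :=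
  gK ((goeMatrix p.1).submatrix Fin.succ Fin.succ) E (gG1 o p)

theorem g_meas_gG0 (o : ι) : Measurable (gG0 (n := n) o) :=
  measurable_pi_lambda _ fun i => measurable_pi_lambda _ fun a => by
    simp only [gG0, Matrix.of_apply]
    split_ifs <;> fun_prop

theorem g_meas_gK1 (o : ι) (E : ℝ) : Measurable (gK1 (n := n) o E) := by
  refine g_meas_gK ((g_goe_cont.matrix_submatrix _ _).measurable.comp measurable_fst) measurable_const ?_
  refine measurable_pi_lambda _ fun i => measurable_pi_lambda _ fun a => ?_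
  simp only [gG1, Matrix.of_apply]
  split_ifs <;> fun_prop

theorem gK1_symm (o : ι) (E : ℝ) (p : GOEDisorder (n + 1) × (Fin (n + 1) → ι → ℝ)) : (gK1 o E p)ᵀ = gK1 o E p :=
  gK_symm (by rw [Matrix.transpose_submatrix, g_goe_symm]) _ _

theorem gD_gG0 (o : ι) (y : Fin (n + 1) → ι → ℝ) :
    gD (gG0 o y) ≤ 2 * gD (gG y) + 2 * (∑ a, y 0 a ^ 2 / (n + 1 : ℕ)) ^ 2 := by
  have hN : (0 : ℝ) ≤ (n + 1 : ℕ) := by positivity
  rw [sq (∑ a, _), Finset.sum_mul_sum, gD, gD]
  simp only [Finset.mul_sum, ← Finset.sum_add_distrib]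
  refine Finset.sum_le_sum fun a _ => Finset.sum_le_sum fun b _ => ?_
  have e : y 0 a ^ 2 / (n + 1 : ℕ) * (y 0 b ^ 2 / (n + 1 : ℕ)) = (y 0 a / √(n + 1 : ℕ) * (y 0 b / √(n + 1 : ℕ))) ^ 2 := by
    rw [mul_pow, div_pow, div_pow, Real.sq_sqrt hN]
  simp only [e, Fin.sum_univ_succ, gG0, gG, Matrix.of_apply, if_true, Fin.succ_ne_zero, if_false]
  generalize y 0 a / √(n + 1 : ℕ) * (y 0 b / √(n + 1 : ℕ)) = r
  by_cases ha : a = o
  · by_cases hb : b = o
    · simp only [ha, hb, if_true, mul_one, mul_zero, Finset.sum_const_zero, add_zero, sub_self]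
      exact (zero_pow two_ne_zero).trans_le (by positivity)
    · simp only [ha, hb, Ne.symm hb, if_true, if_false, mul_zero, zero_mul, Finset.sum_const_zero, add_zero, sub_self]
      exact (zero_pow two_ne_zero).trans_le (by positivity)
  · by_cases hb : b = o
    · simp only [ha, hb, if_true, if_false, mul_zero, zero_mul, Finset.sum_const_zero, add_zero, sub_self]
      exact (zero_pow two_ne_zero).trans_le (by positivity)
    · simp only [ha, hb, if_false, mul_zero, zero_add]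
      generalize (∑ i : Fin n, _ : ℝ) = s
      generalize (if a = b then (1 : ℝ) else 0) = d
      nlinarith [sq_nonneg (2 * r + s - d)]

theorem g_step1' (o : ι) {F : Matrix ι ι ℂ → ℝ} (hF : Continuous F) {ε : ℝ} (hε : 0 < ε) : ∃ c : ℝ,
    ∀ n : ℕ, Fintype.card ι ≤ n + 1 → ∀ E : ℝ, |gA F (n + 1) E -
      ∫ p, F (cay (gK (goeMatrix p.1) E (gG0 o p.2))) ∂gP (n + 1) ι| ≤ ε + c / (n + 1 : ℕ) := by
  obtain ⟨B, hB0, hB⟩ := g_bdd hF
  obtain ⟨θ, hθ, h⟩ := g_step1 hF hε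
  refine ⟨2 * B / min 1 (θ / 4) * (2 * (Fintype.card ι : ℝ) ^ 2 + Fintype.card ι), fun n hn E => ?_⟩
  have hi : ∀ {Γ : (Fin (n + 1) → ι → ℝ) → Matrix (Fin (n + 1)) ι ℝ}, Measurable Γ →
      Integrable (fun p : GOEDisorder (n + 1) × (Fin (n + 1) → ι → ℝ) => F (cay (gK (goeMatrix p.1) E (Γ p.2))))
        (gP (n + 1) ι) := fun hΓ => g_intg _ (hF.measurable.comp (g_meas_cay.comp (g_meas_gK
      (g_goe_meas.comp measurable_fst) measurable_const (hΓ.comp measurable_snd))))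
      fun p => hB _ (gK_symm (g_goe_symm _) _ _)
  have hb : ∀ Γ : Matrix (Fin (n + 1)) ι ℝ, |∫ g, F (cay (gK (goeMatrix g) E Γ)) ∂goeDisorderLaw (n + 1)| ≤ B :=
    fun Γ => g_abs_int (ae_of_all _ fun g => hB _ (gK_symm (g_goe_symm _) _ _))
  obtain ⟨i1, i2⟩ : Integrable (fun y => gD (gG y)) (gpi2 (Fin (n + 1)) ι) ∧
      ∫ y, gD (gG y) ∂gpi2 (Fin (n + 1)) ι ≤ 2 * (Fintype.card ι : ℝ) ^ 2 / (n + 1 : ℕ) := g_gram n.succ_pos
  have i3 : ∀ a, Integrable (fun y : Fin (n + 1) → ι → ℝ => y 0 a ^ 2 / (n + 1 : ℕ)) (gpi2 (Fin (n + 1)) ι) :=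
    fun a => (g_sq 0 a).1.div_const _
  have i4 := integrable_finsetSum Finset.univ fun a _ => i3 a
  rw [gA, integral_prod_symm _ (hi g_meas_gG), integral_prod_symm _ (hi (g_meas_gG0 o))]
  have i5 := (hi g_meas_gG).integral_prod_right
  have i6 := (hi (g_meas_gG0 o)).integral_prod_right
  refine (g_markov (D := fun y => gD (gG y) + ∑ a, y 0 a ^ 2 / (n + 1 : ℕ)) (θ := min 1 (θ / 4)) (B := B)
    i5 i6 (i1.add i4) hε.le (by positivity)
    (fun y => add_nonneg (gD_nonneg _) (by positivity)) (fun y => hb (gG y)) (fun y => hb (gG0 o y))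
    (ae_of_all _ fun y hy => ?_)).trans ?_
  · have h1 := gD_nonneg (gG y)
    have h2 : 0 ≤ ∑ a, y 0 a ^ 2 / (n + 1 : ℕ) := by positivity
    have h3 := hy.trans (min_le_left _ _)
    have h4 := hy.trans (min_le_right _ _)
    have h5 : gD (gG0 o y) ≤ θ := by
      refine (gD_gG0 o y).trans ?_
      generalize (∑ a, y 0 a ^ 2 / (n + 1 : ℕ) : ℝ) = s at *
      nlinarith
    exact h (n + 1) hn E (gG y) (gG0 o y) (by linarith) h5
  · rw [mul_div_assoc _ (_ + _), add_div]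
    refine add_le_add_right (mul_le_mul_of_nonneg_left ((integral_add i1 i4).trans_le (add_le_add i2 ?_))
      (by positivity)) _
    rw [integral_finsetSum _ fun a _ => i3 a]
    simp only [integral_div, fun a : ι => (g_sq (0 : Fin (n + 1)) a).2]
    simp [div_eq_mul_inv]

theorem g_piv (o : ι) {E : ℝ} (p : GOEDisorder (n + 1) × (Fin (n + 1) → ι → ℝ))
    (h1 : (goeMatrix p.1 - E • (1 : Matrix _ _ ℝ)).det ≠ 0)
    (h2 : ((goeMatrix p.1).submatrix Fin.succ Fin.succ - E • (1 : Matrix _ _ ℝ)).det ≠ 0) :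
    cay (gK (goeMatrix p.1) E (gG0 o p.2)) = gdg o (-I) * cay (gK1 o E p -
      Matrix.diagonal fun a => if a = o then goeMatrix p.1 0 0 - E else 0) * gdg o (-I) := by
  have hM := g_goe_symm p.1
  have hs : ∀ a b, goeMatrix p.1 b a = goeMatrix p.1 a b := fun a b => congrFun (congrFun hM a) b
  refine g_pivot (gK_symm hM _ _) (by rw [Matrix.transpose_sub, gK1_symm, Matrix.diagonal_transpose]) o ?_
  have hw : ∀ i, gG1 o p i o = goeMatrix p.1 0 i.succ := fun i => by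
    simp [gG1, goeMatrix, (Fin.succ_ne_zero i).symm]
  have h0 : ∀ a, gG0 o p.2 0 a = if a = o then 1 else 0 := fun a => by simp [gG0]
  have h0' : ∀ (i : Fin n) a, gG0 o p.2 i.succ a = if a = o then 0 else gG1 o p i a := fun i a => by
    simp only [gG0, gG1, Matrix.of_apply, Fin.succ_ne_zero, if_false]
    split_ifs <;> rfl
  have h3 := Matrix.mul_nonsing_inv_cancel_left _ (gG1 o p) h2.isUnit
  have h4 := fun Z : Matrix (Fin (n + 1)) ι ℝ => Matrix.nonsing_inv_mul_cancel_left _ Z h1.isUnit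
  rw [gK1, gK, gK, Matrix.mul_assoc (gG1 o p)ᵀ]
  generalize ((goeMatrix p.1).submatrix Fin.succ Fin.succ - E • (1 : Matrix _ _ ℝ))⁻¹ * gG1 o p = Z at *
  generalize gG1 o p = Γ at *
  generalize gG0 o p.2 = Γ₀ at *
  generalize goeMatrix p.1 = M at *
  have e : Γ₀ * Matrix.of (fun a b => if a = o then (Γᵀ * Z - Matrix.diagonal fun a => if a = o then M 0 0 - E else 0) a b
      else (1 : Matrix ι ι ℝ) a b) = (M - E • (1 : Matrix _ _ ℝ)) *
        Matrix.of (Fin.cons (fun b => if b = o then -1 else 0) Z : Fin (n + 1) → ι → ℝ) := by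
    ext i b
    refine Fin.cases ?_ (fun i => ?_) i
    · rw [Matrix.mul_apply, Finset.sum_eq_single o (fun a _ ha => by simp [h0, ha]) (by simp)]
      simp [Matrix.mul_apply, h0, Fin.sum_univ_succ, hw, Matrix.one_apply, (Fin.succ_ne_zero _).symm,
        Matrix.diagonal_apply, @eq_comm _ o b]
      split_ifs <;> ring
    · have := congrFun (congrFun h3 i) b
      simp only [Matrix.mul_apply, Matrix.sub_apply, Matrix.submatrix_apply, Matrix.smul_apply, Matrix.one_apply]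
        at this
      simp only [Matrix.mul_apply, h0', Fin.sum_univ_succ, Matrix.of_apply, Fin.cons_zero, Fin.cons_succ,
        Matrix.sub_apply, Matrix.smul_apply, Matrix.one_apply, Fin.succ_inj, this, Fin.succ_ne_zero, if_false,
        hs 0, ← hw]
      rw [Finset.sum_eq_single b (fun a _ ha => by split_ifs <;> simp) (by simp)]
      by_cases hb : b = o <;> simp [hb]
  rw [Matrix.mul_assoc, e, Matrix.mul_assoc, h4]
  ext a b
  by_cases ha : a = o
  · simp [Matrix.mul_apply, Fin.sum_univ_succ, h0, h0', ha, Matrix.one_apply, @eq_comm _ o b]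
    split_ifs <;> simp
  · simp [Matrix.mul_apply, Fin.sum_univ_succ, h0, h0', ha, Matrix.diagonal_apply]

theorem g_step2 (o : ι) {F : Matrix ι ι ℂ → ℝ} (hF : Continuous F) {ε : ℝ} (hε : 0 < ε) : ∃ c : ℝ,
    ∀ (n : ℕ) (E : ℝ), E ^ 2 ≤ 16 / (n + 1 : ℕ) → (∀ᵐ g ∂goeDisorderLaw (n + 1),
      (goeMatrix g - E • (1 : Matrix _ _ ℝ)).det ≠ 0 ∧
      ((goeMatrix g).submatrix Fin.succ Fin.succ - E • (1 : Matrix _ _ ℝ)).det ≠ 0) →
      |∫ p, F (cay (gK (goeMatrix p.1) E (gG0 o p.2))) ∂gP (n + 1) ι -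
        ∫ p, F (gdg o (-I) * cay (gK1 o E p) * gdg o (-I)) ∂gP (n + 1) ι| ≤ ε + c / (n + 1 : ℕ) := by
  have hF' : Continuous fun S => F (gdg o (-I) * S * gdg o (-I)) := by fun_prop
  obtain ⟨B, hB0, hB⟩ := g_bdd hF
  obtain ⟨B', -, hB'⟩ := g_bdd hF'
  obtain ⟨θ, hθ, h⟩ := g_stabK hF' hε
  refine ⟨2 * max B B' / θ ^ 2 * 36, fun n E hE hu => ?_⟩
  have hN : (0 : ℝ) < (n + 1 : ℕ) := by positivity
  obtain ⟨i1, i2⟩ := g_sq (0 : Fin (n + 1)) (0 : Fin (n + 1))
  have mp : MeasurePreserving Prod.fst (gP (n + 1) ι) (gpi2 (Fin (n + 1)) (Fin (n + 1))) := measurePreserving_fst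
  have i3 := (mp.integrable_comp_of_integrable i1).const_mul (4 / (n + 1 : ℕ))
  refine (g_markov (D := fun p => 4 / (n + 1 : ℕ) * p.1 0 0 ^ 2 + 2 * E ^ 2) (θ := θ ^ 2) (B := max B B')
    (g_intg _ (hF.measurable.comp (g_meas_cay.comp (g_meas_gK (g_goe_meas.comp measurable_fst) measurable_const
      ((g_meas_gG0 o).comp measurable_snd)))) fun p => hB _ (gK_symm (g_goe_symm _) _ _))
    (g_intg _ (hF'.measurable.comp (g_meas_cay.comp (g_meas_gK1 o E))) fun p => hB' _ (gK1_symm _ _ _))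
    (i3.add (integrable_const _)) hε.le (by positivity) (fun p => by positivity)
    (fun p => le_max_of_le_left (hB _ (gK_symm (g_goe_symm _) _ _)))
    (fun p => le_max_of_le_right (hB' _ (gK1_symm _ _ _)))
    ((Measure.quasiMeasurePreserving_fst.ae hu).mono fun p hp hd => ?_)).trans ?_
  · simp only [Function.comp]
    rw [g_piv o p hp.1 hp.2]
    refine h _ _ (by rw [Matrix.transpose_sub, gK1_symm, Matrix.diagonal_transpose]) (gK1_symm _ _ _) fun a b => ?_
    rw [Matrix.sub_apply, sub_sub_cancel_left, abs_neg, Matrix.diagonal_apply]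
    split_ifs
    · refine abs_le_of_sq_le_sq (le_trans ?_ hd) hθ.le
      have e : goeMatrix p.1 0 0 ^ 2 = 2 / (n + 1 : ℕ) * p.1 0 0 ^ 2 := by
        simp only [goeMatrix, if_true, div_pow, mul_pow, Real.sq_sqrt hN.le, Real.sq_sqrt zero_le_two]
        ring
      have e2 : 4 / ((n + 1 : ℕ) : ℝ) = 2 * (2 / (n + 1 : ℕ)) := by ring
      rw [e2, mul_assoc, ← e]
      nlinarith [sq_nonneg (goeMatrix p.1 0 0 + E)]
    all_goals simpa using hθ.le
  · rw [mul_div_assoc _ (36 : ℝ)]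
    refine add_le_add_right (mul_le_mul_of_nonneg_left ((integral_add i3 (integrable_const _)).trans_le ?_)
      (by positivity)) _
    rw [integral_const_mul, integral_const, probReal_univ, one_smul]
    have : ∫ p, ((fun y : Fin (n + 1) → Fin (n + 1) → ℝ => y 0 0 ^ 2) ∘ Prod.fst) p ∂gP (n + 1) ι = 1 :=
      (g_int_mp mp (by fun_prop)).trans i2
    have e2 : 36 / ((n + 1 : ℕ) : ℝ) = 4 / (n + 1 : ℕ) * 1 + 2 * (16 / (n + 1 : ℕ)) := by ring
    rw [this, e2]
    linarith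

theorem gK1_gsw {o c : ι} (hc : c ≠ o) (E : ℝ) (p : GOEDisorder (n + 1) × (Fin (n + 1) → ι → ℝ)) :
    gK1 o E (gsw c p) = (gK1 o E p).submatrix (Equiv.swap o c) (Equiv.swap o c) := by
  have e1 : (goeMatrix (gsw c p).1).submatrix Fin.succ Fin.succ = (goeMatrix p.1).submatrix Fin.succ Fin.succ := by
    ext a b
    simp [goeMatrix, gsw]
  have e2 : gG1 o (gsw c p) = (gG1 o p).submatrix id (Equiv.swap o c) := by
    ext i a
    by_cases h1 : a = o
    · simp [gG1, gsw, h1, hc]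
    · by_cases h2 : a = c
      · simp [gG1, gsw, h2, hc]
      · simp [gG1, gsw, h1, h2, Equiv.swap_apply_of_ne_of_ne]
  rw [gK1, gK1, e1, e2]
  ext a b
  simp [gK, Matrix.mul_apply]

/-- the unitary of the symmetry -/
def gW : Matrix (Fin 2) (Fin 2) ℂ := !![0, -I; I, 0]

theorem gW_conj {k : ℕ} (S : Matrix (Fin 2 ⊕ Fin k) (Fin 2 ⊕ Fin k) ℂ) :
    blk gW k * (gdg (.inl 0) (-I) * S * gdg (.inl 0) (-I)) * (blk gW k)ᵀ = gdg (.inl 0) (-I) *
      S.submatrix (Equiv.swap (.inl 0) (.inl 1)) (Equiv.swap (.inl 0) (.inl 1)) * gdg (.inl 0) (-I) := by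
  have e1 : blk gW k * gdg (.inl 0) (-I) = gdg (.inl 0) (-I) * (1 : Matrix (Fin 2 ⊕ Fin k) (Fin 2 ⊕ Fin k) ℂ).submatrix
      (Equiv.swap (.inl 0) (.inl 1)) (Equiv.refl _) := by
    ext a b
    rw [gdg, Matrix.mul_diagonal, Matrix.diagonal_mul, Matrix.submatrix_apply, Matrix.one_apply]
    rcases a with a | a <;> rcases b with b | b
    · revert a b
      simp [Fin.forall_fin_two, blk, gW]
    · revert a
      simp [Fin.forall_fin_two, blk]
    · simp [blk, Equiv.swap_apply_of_ne_of_ne]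
    · simp [blk, Equiv.swap_apply_of_ne_of_ne, Matrix.one_apply]
  have e2 := congrArg Matrix.transpose e1
  rw [Matrix.transpose_mul, Matrix.transpose_mul, gdg, Matrix.diagonal_transpose, ← gdg, Matrix.transpose_submatrix,
    Matrix.transpose_one] at e2
  calc _ = blk gW k * gdg (.inl 0) (-I) * S * (gdg (.inl 0) (-I) * (blk gW k)ᵀ) := by simp only [Matrix.mul_assoc]
    _ = _ := by
      rw [e1, e2, Matrix.mul_assoc (gdg _ _), Matrix.one_submatrix_mul, ← Matrix.mul_assoc, Matrix.mul_assoc (gdg _ _),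
        Matrix.mul_submatrix_one]
      rfl

theorem g_H2 (hE : StE) {n : ℕ → ℕ} (hn : Tendsto n atTop atTop) :
    H2 n (fun j => goeLaw (n j)) fun _ x => x⁻¹ := by
  refine ⟨2, gW, ?_, ⟨0, 1, by simp [gW]⟩, fun δ hδ hδ1 k => ⟨k, le_rfl, fun F hF ε hε => ?_⟩⟩
  · rw [Matrix.mem_unitaryGroup_iff]
    ext a b
    fin_cases a <;> fin_cases b <;> simp [gW, Matrix.mul_apply, Fin.sum_univ_two]
  have hF' : Continuous fun S => F (blk gW k * S * (blk gW k)ᵀ) := by fun_prop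
  have hε' : 0 < ε / 5 := by positivity
  obtain ⟨c1, h1⟩ := g_step1' (.inl 0) hF hε'
  obtain ⟨c2, h2⟩ := g_step1' (.inl 0) hF' hε'
  obtain ⟨c3, h3⟩ := g_step2 (.inl 0) hF hε'
  obtain ⟨c4, h4⟩ := g_step2 (.inl 0) hF' hε'
  have ht : ∀ᶠ N : ℕ in atTop, (c1 + c2 + c3 + c4) / N ≤ ε / 5 :=
    (tendsto_const_div_atTop_nhds_zero_nat _).eventually_le_const hε'
  refine Eventually.of_forall fun _ => (hn.eventually (ht.and ((eventually_gt_atTop 0).and
    (eventually_ge_atTop (Fintype.card (Fin 2 ⊕ Fin k)))))).mono fun j => ?_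
  beta_reduce
  generalize n j = N
  rintro ⟨hc, hN, hk⟩
  obtain ⟨m, rfl⟩ := Nat.exists_eq_add_one_of_ne_zero hN.ne'
  obtain ⟨i1, e1⟩ := g_modelE hE hN hF hδ.le
  obtain ⟨i2, e2⟩ := g_modelE hE hN hF' hδ.le
  rw [e1, e2, ← mul_sub, ← integral_sub i1 i2, abs_mul, abs_of_pos (inv_pos.2 hδ), inv_mul_le_iff₀ hδ,
    ← Real.norm_eq_abs]
  refine (norm_setIntegral_le_of_norm_le_const_ae' (C := ε) (s := Set.Ioc 0 δ) (μ := volume) measure_Ioc_lt_top
    ((g_ae_unit hE m).mono fun t hu ht => ?_)).trans_eq (by simp [hδ.le, mul_comm])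
  have hN' : (1 : ℝ) ≤ (m + 1 : ℕ) := by exact_mod_cast hN
  have hE2 : (Real.pi * t / (m + 1 : ℕ)) ^ 2 ≤ 16 / (m + 1 : ℕ) := by
    have : Real.pi * t ≤ 4 * 1 := mul_le_mul Real.pi_le_four (ht.2.trans hδ1) ht.1.le (by norm_num)
    rw [div_pow]
    exact div_le_div₀ (by norm_num) (by nlinarith [mul_pos Real.pi_pos ht.1]) (by positivity) (by nlinarith)
  have a1 := abs_le.1 (h1 m hk (Real.pi * t / (m + 1 : ℕ)))
  have a2 := abs_le.1 (h2 m hk (Real.pi * t / (m + 1 : ℕ)))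
  have a3 := abs_le.1 (h3 m _ hE2 hu)
  have a4 := abs_le.1 (h4 m _ hE2 hu)
  have hP : Continuous fun S => F (gdg (.inl 0) (-I) * S * gdg (.inl 0) (-I)) := by fun_prop
  have a5 := g_int_mp (g_swap (n := m) (Sum.inl 1 : Fin 2 ⊕ Fin k)) (hP.measurable.comp (g_meas_cay.comp
    (g_meas_gK1 (.inl 0) (Real.pi * t / (m + 1 : ℕ)))))
  simp only [Function.comp, gK1_gsw (show (Sum.inl 1 : Fin 2 ⊕ Fin k) ≠ .inl 0 by simp), cay_submatrix,
    ← gW_conj] at a5
  simp only [add_div] at hc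
  exact abs_le.2 ⟨by linarith, by linarith⟩

theorem stG (hE : StE) : StG := fun _ hn => ⟨g_H1 hE hn, g_H2 hE hn⟩

end Crest.Agent.R166
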