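import Crest.Agent.R166.G.Gauss

/-! Row 166, block G: resolvents of real symmetric matrices and the Cayley transform. -/

set_option autoImplicit false
set_option linter.unusedSectionVars false

open MeasureTheory Filter Topology Complex
open scoped BigOperators Matrix ComplexConjugate

noncomputable section

namespace Crest.Agent.R166

variable {ι : Type} [Fintype ι] [DecidableEq ι]

/-- complexification -/
abbrev gc {α β : Type} (K : Matrix α β ℝ) : Matrix α β ℂ := K.map fun x : ℝ => (x : ℂ)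

theorem gc_apply {α β : Type} (K : Matrix α β ℝ) (a : α) (b : β) : gc K a b = (K a b : ℂ) := rfl

theorem gc_mul {α β γ : Type} [Fintype β] (A : Matrix α β ℝ) (B : Matrix β γ ℝ) : gc (A * B) = gc A * gc B :=
  Matrix.map_mul (f := Complex.ofRealHom)

theorem g_herm {A : Matrix ι ι ℝ} (hA : Aᵀ = A) (x : ι → ℂ) : (∑ a, conj (x a) * (gc A *ᵥ x) a).im = 0 := by
  have hs : ∀ a b, A b a = A a b := fun a b => congrFun (congrFun hA a) b
  have e : ∀ a, (conj (x a) * (gc A *ᵥ x) a).im =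
      ∑ b, A a b * ((x a).re * (x b).im) - ∑ b, A a b * ((x a).im * (x b).re) := fun a => by
    simp only [Matrix.mulVec, dotProduct, Finset.mul_sum, Complex.im_sum, ← Finset.sum_sub_distrib]
    exact Finset.sum_congr rfl fun b _ => by simp; ring
  simp only [Complex.im_sum, e, Finset.sum_sub_distrib]
  rw [Finset.sum_comm, sub_eq_zero]
  exact Finset.sum_congr rfl fun a _ => Finset.sum_congr rfl fun b _ => by rw [hs]; ring

theorem g_ward {A : Matrix ι ι ℝ} (hA : Aᵀ = A) (z : ℂ) (x : ι → ℂ) :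
    (∑ a, conj (x a) * ((gc A - z • (1 : Matrix ι ι ℂ)) *ᵥ x) a).im = -(z.im * ∑ a, ‖x a‖ ^ 2) := by
  simp only [Matrix.sub_mulVec, Matrix.smul_mulVec, Matrix.one_mulVec, Pi.sub_apply, Pi.smul_apply,
    mul_sub, Finset.sum_sub_distrib, Complex.sub_im, g_herm hA, zero_sub, neg_inj, Finset.mul_sum,
    Complex.im_sum, smul_eq_mul]
  refine Finset.sum_congr rfl fun a _ => ?_
  rw [mul_left_comm, Complex.conj_mul', ← Complex.ofReal_pow, Complex.im_mul_ofReal]

theorem g_unit {A : Matrix ι ι ℝ} (hA : Aᵀ = A) {z : ℂ} (hz : z.im ≠ 0) :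
    IsUnit (gc A - z • (1 : Matrix ι ι ℂ)).det := by
  rw [isUnit_iff_ne_zero, Ne, ← Matrix.exists_mulVec_eq_zero_iff]
  rintro ⟨x, hx, h⟩
  have h1 := g_ward hA z x
  simp only [h, Pi.zero_apply, mul_zero, Finset.sum_const_zero, Complex.zero_im, zero_eq_neg, mul_eq_zero,
    hz, false_or] at h1
  refine hx (funext fun a => ?_)
  simpa using (Finset.sum_eq_zero_iff_of_nonneg fun a _ => sq_nonneg _).1 h1 a (Finset.mem_univ a)

/-- `(K + i)⁻¹` -/
def gR (K : Matrix ι ι ℝ) : Matrix ι ι ℂ := (gc K + I • (1 : Matrix ι ι ℂ))⁻¹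

theorem cay_eq (K : Matrix ι ι ℝ) : cay K = 1 - (2 * I) • gR K := rfl

theorem g_unitI {K : Matrix ι ι ℝ} (hK : Kᵀ = K) : IsUnit (gc K + I • (1 : Matrix ι ι ℂ)).det := by
  simpa using g_unit hK (z := -I) (by simp)

theorem gR_mul {K : Matrix ι ι ℝ} (hK : Kᵀ = K) : gR K * (gc K + I • (1 : Matrix ι ι ℂ)) = 1 :=
  Matrix.nonsing_inv_mul _ (g_unitI hK)

theorem mul_gR {K : Matrix ι ι ℝ} (hK : Kᵀ = K) : (gc K + I • (1 : Matrix ι ι ℂ)) * gR K = 1 :=
  Matrix.mul_nonsing_inv _ (g_unitI hK)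

theorem norm_gR_le {K : Matrix ι ι ℝ} (hK : Kᵀ = K) (a b : ι) : ‖gR K a b‖ ≤ 1 := by
  have h1 := g_ward hK (-I) fun c => gR K c b
  have h2 : (gc K - (-I) • (1 : Matrix ι ι ℂ)) *ᵥ (fun c => gR K c b) = Pi.single b 1 := by
    funext c
    have := congrFun (congrFun (mul_gR hK) c) b
    rw [neg_smul, sub_neg_eq_add, Pi.single_apply, ← Matrix.one_apply, ← this]
    rfl
  simp only [h2, Pi.single_apply, mul_ite, mul_one, mul_zero, Finset.sum_ite_eq', Finset.mem_univ, if_true,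
    Complex.neg_im, Complex.I_im, neg_mul, one_mul, neg_neg] at h1
  have h3 : ∑ c, ‖gR K c b‖ ^ 2 ≤ ‖gR K b b‖ := by
    rw [← h1, ← Complex.norm_conj]
    exact (le_abs_self _).trans (Complex.abs_im_le_norm _)
  have h4 := fun c => Finset.single_le_sum (f := fun c => ‖gR K c b‖ ^ 2) (fun c _ => sq_nonneg _)
    (Finset.mem_univ c)
  have h5 : ‖gR K b b‖ ≤ 1 := by nlinarith [h4 b, norm_nonneg (gR K b b)]
  exact (sq_le_one_iff₀ (norm_nonneg _)).1 ((h4 a).trans (h3.trans h5))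

theorem norm_one_le (a b : ι) : ‖(1 : Matrix ι ι ℂ) a b‖ ≤ 1 := by
  rw [Matrix.one_apply]; split_ifs <;> simp

theorem norm_cay_le {K : Matrix ι ι ℝ} (hK : Kᵀ = K) (a b : ι) : ‖cay K a b‖ ≤ 3 := by
  rw [cay_eq, Matrix.sub_apply, Matrix.smul_apply, smul_eq_mul]
  refine (norm_sub_le _ _).trans ?_
  rw [norm_mul, norm_mul, Complex.norm_I, Complex.norm_two]
  linarith [norm_one_le a b, norm_gR_le hK a b]

/-- entrywise `ℓ¹` norm -/
def gl (A : Matrix ι ι ℂ) : ℝ := ∑ a, ∑ b, ‖A a b‖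

theorem gl_nonneg (A : Matrix ι ι ℂ) : 0 ≤ gl A := by unfold gl; positivity

theorem gl_add (A B : Matrix ι ι ℂ) : gl (A + B) ≤ gl A + gl B := by
  simp only [gl, ← Finset.sum_add_distrib]
  exact Finset.sum_le_sum fun a _ => Finset.sum_le_sum fun b _ => norm_add_le _ _

theorem gl_smul (c : ℂ) (A : Matrix ι ι ℂ) : gl (c • A) = ‖c‖ * gl A := by
  simp [gl, Finset.mul_sum]

theorem gl_tr (A : Matrix ι ι ℂ) : gl Aᵀ = gl A := Finset.sum_comm

theorem row_le_gl (A : Matrix ι ι ℂ) (a : ι) : ∑ b, ‖A a b‖ ≤ gl A :=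
  Finset.single_le_sum (f := fun a => ∑ b, ‖A a b‖) (fun a _ => by positivity) (Finset.mem_univ a)

theorem norm_le_gl (A : Matrix ι ι ℂ) (a b : ι) : ‖A a b‖ ≤ gl A :=
  (Finset.single_le_sum (f := fun b => ‖A a b‖) (fun _ _ => norm_nonneg _) (Finset.mem_univ b)).trans
    (row_le_gl A a)

theorem gl_mul (A B : Matrix ι ι ℂ) : gl (A * B) ≤ gl A * gl B := by
  rw [gl, gl, Finset.sum_mul]
  refine Finset.sum_le_sum fun a _ => ?_
  calc ∑ b, ‖(A * B) a b‖ ≤ ∑ b, ∑ c, ‖A a c‖ * ‖B c b‖ := Finset.sum_le_sum fun b _ =>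
        (norm_sum_le _ _).trans (Finset.sum_le_sum fun c _ => norm_mul_le _ _)
    _ = ∑ c, ‖A a c‖ * ∑ b, ‖B c b‖ := by rw [Finset.sum_comm]; simp only [Finset.mul_sum]
    _ ≤ _ := by
      rw [Finset.sum_mul]
      exact Finset.sum_le_sum fun c _ => mul_le_mul_of_nonneg_left (row_le_gl B c) (norm_nonneg _)

theorem gl_mul3 (A B C : Matrix ι ι ℂ) : gl (A * B * C) ≤ gl A * gl B * gl C :=
  (gl_mul _ _).trans (mul_le_mul_of_nonneg_right (gl_mul _ _) (gl_nonneg _))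

theorem gl_le {A : Matrix ι ι ℂ} {c : ℝ} (h : ∀ a b, ‖A a b‖ ≤ c) : gl A ≤ (Fintype.card ι : ℝ) ^ 2 * c := by
  refine (Finset.sum_le_sum fun a _ => Finset.sum_le_sum fun b _ => h a b).trans_eq ?_
  simp only [Finset.sum_const, Finset.card_univ, nsmul_eq_mul]; ring

theorem gl_gR {K : Matrix ι ι ℝ} (hK : Kᵀ = K) : gl (gR K) ≤ (Fintype.card ι : ℝ) ^ 2 := by
  simpa using gl_le (norm_gR_le hK)

theorem gl_gR' {K : Matrix ι ι ℝ} (hK : Kᵀ = K) : gl (1 - I • gR K) ≤ (Fintype.card ι : ℝ) ^ 2 * 2 :=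
  gl_le fun a b => by
    rw [Matrix.sub_apply, Matrix.smul_apply, smul_eq_mul]
    refine (norm_sub_le _ _).trans ?_
    rw [norm_mul, Complex.norm_I]
    linarith [norm_one_le a b, norm_gR_le hK a b]

theorem gl_cay (K K' : Matrix ι ι ℝ) : gl (cay K - cay K') = 2 * gl (gR K' - gR K) := by
  rw [cay_eq, cay_eq, sub_sub_sub_cancel_left, ← smul_sub, gl_smul]
  simp

theorem gR_sub {K K' : Matrix ι ι ℝ} (hK : Kᵀ = K) (hK' : K'ᵀ = K') :
    gR K' - gR K = gR K' * (gc K - gc K') * gR K := by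
  rw [← add_sub_add_right_eq_sub (gc K) (gc K') (I • (1 : Matrix ι ι ℂ)), Matrix.mul_sub, Matrix.sub_mul, gR_mul hK',
    Matrix.mul_assoc, mul_gR hK, Matrix.mul_one, Matrix.one_mul]

theorem g_unif {F : Matrix ι ι ℂ → ℝ} (hF : Continuous F) {ε : ℝ} (hε : 0 < ε) : ∃ θ : ℝ, 0 < θ ∧
    ∀ K K' : Matrix ι ι ℝ, Kᵀ = K → K'ᵀ = K' → gl (cay K - cay K') ≤ θ → |F (cay K) - F (cay K')| ≤ ε := by
  have hF' : Continuous fun S : ι → ι → ℂ => F S := hF
  obtain ⟨θ, hθ, h⟩ := Metric.uniformContinuousOn_iff_le.1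
    ((isCompact_closedBall (0 : ι → ι → ℂ) 3).uniformContinuousOn_of_continuous hF'.continuousOn) ε hε
  have hm : ∀ K : Matrix ι ι ℝ, Kᵀ = K → (cay K : ι → ι → ℂ) ∈ Metric.closedBall (0 : ι → ι → ℂ) 3 :=
    fun K hK => mem_closedBall_zero_iff.2 ((pi_norm_le_iff_of_nonneg (by norm_num)).2 fun a =>
      (pi_norm_le_iff_of_nonneg (by norm_num)).2 fun b => norm_cay_le hK a b)
  refine ⟨θ, hθ, fun K K' hK hK' hd => h _ (hm K hK) _ (hm K' hK') ?_⟩
  exact (dist_pi_le_iff hθ.le).2 fun a => (dist_pi_le_iff hθ.le).2 fun b =>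
    (dist_eq_norm _ _).trans_le ((norm_le_gl (cay K - cay K') a b).trans hd)

theorem g_bdd {F : Matrix ι ι ℂ → ℝ} (hF : Continuous F) :
    ∃ B : ℝ, 0 ≤ B ∧ ∀ K : Matrix ι ι ℝ, Kᵀ = K → |F (cay K)| ≤ B := by
  have hF' : Continuous fun S : ι → ι → ℂ => F S := hF
  obtain ⟨B, h⟩ := (isCompact_closedBall (0 : ι → ι → ℂ) 3).exists_bound_of_continuousOn hF'.continuousOn
  refine ⟨max B 0, le_max_right _ _, fun K hK => le_max_of_le_left (h (cay K) ?_)⟩
  exact mem_closedBall_zero_iff.2 ((pi_norm_le_iff_of_nonneg (by norm_num)).2 fun a =>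
    (pi_norm_le_iff_of_nonneg (by norm_num)).2 fun b => norm_cay_le hK a b)

theorem g_stabK {F : Matrix ι ι ℂ → ℝ} (hF : Continuous F) {ε : ℝ} (hε : 0 < ε) : ∃ θ : ℝ, 0 < θ ∧
    ∀ K K' : Matrix ι ι ℝ, Kᵀ = K → K'ᵀ = K' → (∀ a b, |K a b - K' a b| ≤ θ) →
      |F (cay K) - F (cay K')| ≤ ε := by
  obtain ⟨θ, hθ, h⟩ := g_unif hF hε
  obtain ⟨N, hN⟩ : ∃ N : ℝ, N = (Fintype.card ι : ℝ) ^ 2 := ⟨_, rfl⟩
  have hN0 : 0 ≤ N := by rw [hN]; positivity
  refine ⟨θ / (2 * N ^ 3 + 1), by positivity, fun K K' hK hK' hd => h K K' hK hK' ?_⟩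
  have h1 : gl (gc K - gc K') ≤ N * (θ / (2 * N ^ 3 + 1)) := (gl_le fun a b => by
    rw [Matrix.sub_apply, gc_apply, gc_apply, ← Complex.ofReal_sub, Complex.norm_real]
    exact hd a b).trans_eq (by rw [← hN])
  rw [gl_cay, gR_sub hK hK']
  calc 2 * gl (gR K' * (gc K - gc K') * gR K) ≤ 2 * (N * (N * (θ / (2 * N ^ 3 + 1))) * N) := by
        refine mul_le_mul_of_nonneg_left ((gl_mul3 _ _ _).trans ?_) zero_le_two
        have := gl_nonneg (gR K)
        have := gl_nonneg (gc K - gc K')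
        gcongr
        · exact hN ▸ gl_gR hK'
        · exact hN ▸ gl_gR hK
    _ = 2 * N ^ 3 / (2 * N ^ 3 + 1) * θ := by ring
    _ ≤ θ := mul_le_of_le_one_left hθ.le ((div_le_one (by positivity)).2 (by linarith))

theorem gl_conj {K T : Matrix ι ι ℝ} (hK : Kᵀ = K) (hT : gl (1 - gc T) ≤ 1 / 2) :
    gl (gR (T * K * Tᵀ) - gR K) ≤ 6 * ((Fintype.card ι : ℝ) ^ 2) ^ 2 * gl (1 - gc T) := by
  have hK' : (T * K * Tᵀ)ᵀ = T * K * Tᵀ := by
    rw [Matrix.transpose_mul, Matrix.transpose_mul, Matrix.transpose_transpose, hK, Matrix.mul_assoc]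
  have e0 : gc (T * K * Tᵀ) = gc T * gc K * (gc T)ᵀ := by rw [gc_mul, gc_mul]; rfl
  have e1 : gc K * gR K = 1 - I • gR K := by
    rw [← mul_gR hK, Matrix.add_mul, Matrix.smul_mul, Matrix.one_mul, add_sub_cancel_right]
  have e2 : gR (T * K * Tᵀ) * gc T * gc K * (gc T)ᵀ = 1 - I • gR (T * K * Tᵀ) := by
    rw [← gR_mul hK', Matrix.mul_add, Matrix.mul_smul, Matrix.mul_one, add_sub_cancel_right, e0]
    simp only [Matrix.mul_assoc]
  have b1 := gl_gR hK
  have b2 := gl_gR hK'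
  have b3 := gl_gR' hK
  have b4 := gl_gR' hK'
  rw [gR_sub hK hK', e0]
  rw [← e1] at b3
  rw [← e2] at b4
  generalize gR (T * K * Tᵀ) = R' at *
  generalize gR K = R at *
  generalize gc K = A at *
  generalize gc T = S at *
  generalize (Fintype.card ι : ℝ) ^ 2 = N at *
  have hT' : gl (1 - Sᵀ) = gl (1 - S) := by rw [← gl_tr, Matrix.transpose_sub, Matrix.transpose_one]; rfl
  have hZ : gl (R' * S * A) ≤ 4 * N := by
    have e : R' * S * A = R' * S * A * Sᵀ + R' * S * A * (1 - Sᵀ) := by noncomm_ring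
    have h1 := gl_add (R' * S * A * Sᵀ) (R' * S * A * (1 - Sᵀ))
    have h2 := gl_mul (R' * S * A) (1 - Sᵀ)
    rw [← e] at h1
    rw [hT'] at h2
    nlinarith [gl_nonneg (R' * S * A)]
  have e : R' * (A - S * A * Sᵀ) * R = R' * (1 - S) * (A * R) + R' * S * A * (1 - Sᵀ) * R := by noncomm_ring
  have hd := gl_nonneg (1 - S)
  have hN := (gl_nonneg R).trans b1
  rw [e]
  calc _ ≤ gl R' * gl (1 - S) * gl (A * R) + gl (R' * S * A) * gl (1 - S) * gl R :=
        (gl_add _ _).trans (add_le_add (gl_mul3 _ _ _) (hT' ▸ gl_mul3 _ _ _))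
    _ ≤ N * gl (1 - S) * (N * 2) + 4 * N * gl (1 - S) * N := by
        have := gl_nonneg R
        have := gl_nonneg (A * R)
        gcongr
    _ = _ := by ring

theorem g_stabT {F : Matrix ι ι ℂ → ℝ} (hF : Continuous F) {ε : ℝ} (hε : 0 < ε) : ∃ θ : ℝ, 0 < θ ∧
    ∀ K T : Matrix ι ι ℝ, Kᵀ = K → ∑ a, ∑ b, (T a b - if a = b then 1 else 0) ^ 2 ≤ θ →
      |F (cay K) - F (cay (T * K * Tᵀ))| ≤ ε := by
  obtain ⟨θ, hθ, h⟩ := g_unif hF hε
  obtain ⟨N, hN⟩ : ∃ N : ℝ, N = (Fintype.card ι : ℝ) ^ 2 := ⟨_, rfl⟩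
  have hN0 : 0 ≤ N := by rw [hN]; positivity
  obtain ⟨d, hd0, hd1, hd2⟩ : ∃ d : ℝ, 0 < d ∧ N * d ≤ 1 / 2 ∧ 12 * N ^ 3 * d ≤ θ := by
    refine ⟨min (1 / (2 * N + 1)) (θ / (12 * N ^ 3 + 1)), by positivity, ?_, ?_⟩
    · refine (mul_le_mul_of_nonneg_left (min_le_left _ _) hN0).trans ?_
      rw [mul_one_div, div_le_iff₀ (by positivity)]
      linarith
    · refine (mul_le_mul_of_nonneg_left (min_le_right _ _) (by positivity)).trans ?_
      rw [← mul_div_assoc, div_le_iff₀ (by positivity)]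
      nlinarith
  refine ⟨d ^ 2, by positivity, fun K T hK hT => h _ _ hK ?_ ?_⟩
  · rw [Matrix.transpose_mul, Matrix.transpose_mul, Matrix.transpose_transpose, hK, Matrix.mul_assoc]
  have h1 : gl (1 - gc T) ≤ N * d := hN ▸ gl_le fun a b => by
    have h2 : (T a b - if a = b then 1 else 0) ^ 2 ≤ d ^ 2 :=
      ((Finset.single_le_sum (f := fun b => (T a b - if a = b then 1 else 0) ^ 2) (fun a _ => sq_nonneg _)
        (Finset.mem_univ b)).trans (Finset.single_le_sum (f := fun a => ∑ b, (T a b - if a = b then 1 else 0) ^ 2)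
          (fun a _ => by positivity) (Finset.mem_univ a))).trans hT
    have e : (1 - gc T) a b = ((-(T a b - if a = b then 1 else 0) : ℝ) : ℂ) := by
      rw [Matrix.sub_apply, Matrix.one_apply, gc_apply]
      split_ifs <;> simp
    rw [e, Complex.norm_real, norm_neg]
    exact abs_le_of_sq_le_sq h2 hd0.le
  rw [gl_cay]
  have h2 := gl_conj hK (h1.trans hd1)
  rw [← hN] at h2
  nlinarith [mul_le_mul_of_nonneg_left h1 (sq_nonneg N)]

/-- `diag (1, …, c, …, 1)` -/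
def gdg (o : ι) (c : ℂ) : Matrix ι ι ℂ := Matrix.diagonal fun a => if a = o then c else 1

/-- partial inversion in the coordinate `o` -/
theorem g_pivot {K₀ K : Matrix ι ι ℝ} (h₀ : K₀ᵀ = K₀) (hK : Kᵀ = K) (o : ι)
    (h : K₀ * Matrix.of (fun a b => if a = o then K a b else (1 : Matrix ι ι ℝ) a b) =
      Matrix.of fun a b => if a = o then -(1 : Matrix ι ι ℝ) a b else K a b) :
    cay K₀ = gdg o (-I) * cay K * gdg o (-I) := by
  have hc := congrArg gc h
  rw [gc_mul] at hc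
  generalize hX : gc (Matrix.of fun a b => if a = o then K a b else (1 : Matrix ι ι ℝ) a b) = X at hc
  generalize hY : gc (Matrix.of fun a b => if a = o then -(1 : Matrix ι ι ℝ) a b else K a b) = Y at hc
  have e1 : Y + I • X = gdg o I * (gc K + I • (1 : Matrix ι ι ℂ)) := by
    ext a b
    rw [← hX, ← hY, gdg, Matrix.diagonal_mul]
    simp only [Matrix.add_apply, Matrix.smul_apply, Matrix.map_apply, Matrix.of_apply, Matrix.one_apply,
      smul_eq_mul]
    split_ifs <;> simp [mul_add, add_comm]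
  have e2 : Y - I • X = gdg o (-I) * (gc K + I • (1 : Matrix ι ι ℂ) - (2 * I) • 1) := by
    ext a b
    rw [← hX, ← hY, gdg, Matrix.diagonal_mul]
    simp only [Matrix.add_apply, Matrix.sub_apply, Matrix.smul_apply, Matrix.map_apply, Matrix.of_apply,
      Matrix.one_apply, smul_eq_mul]
    split_ifs <;> simp <;> ring_nf <;> simp [Complex.I_sq]
    ring
  have e3 : gdg o I * gdg o (-I) = 1 := by
    rw [gdg, gdg, Matrix.diagonal_mul_diagonal, ← Matrix.diagonal_one]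
    congr 1
    funext a
    split_ifs <;> simp
  have e4 : cay K₀ * (Y + I • X) = Y - I • X := by
    have : Y + I • X = (gc K₀ + I • (1 : Matrix ι ι ℂ)) * X := by
      rw [Matrix.add_mul, hc, Matrix.smul_mul, Matrix.one_mul]
    rw [cay_eq, Matrix.sub_mul, Matrix.one_mul, Matrix.smul_mul]
    nth_rw 2 [this]
    rw [← Matrix.mul_assoc, gR_mul h₀, Matrix.one_mul, two_mul, add_smul, add_sub_add_right_eq_sub]
  have e5 : cay K₀ * gdg o I = gdg o (-I) * cay K := by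
    have := congrArg (· * gR K) e4
    simp only [e1, e2, Matrix.mul_assoc, mul_gR hK, Matrix.mul_one, Matrix.sub_mul, Matrix.smul_mul,
      Matrix.one_mul] at this
    exact this
  rw [← e5, Matrix.mul_assoc, e3, Matrix.mul_one]

theorem cay_submatrix (K : Matrix ι ι ℝ) (σ : ι ≃ ι) : cay (K.submatrix σ σ) = (cay K).submatrix σ σ := by
  have : gc (K.submatrix σ σ) + I • (1 : Matrix ι ι ℂ) = (gc K + I • (1 : Matrix ι ι ℂ)).submatrix σ σ := by
    ext a b
    simp [Matrix.one_apply]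
  rw [cay_eq, cay_eq, gR, this, Matrix.inv_submatrix_equiv]
  ext a b
  simp [Matrix.one_apply, gR]

theorem g_meas_inv {𝕜 : Type} [RCLike 𝕜] [MeasurableSpace 𝕜] [BorelSpace 𝕜] :
    Measurable fun A : Matrix ι ι 𝕜 => A⁻¹ := by
  refine measurable_pi_lambda _ fun a => measurable_pi_lambda _ fun b => ?_
  simp only [Matrix.inv_def, Ring.inverse_eq_inv', Matrix.smul_apply, smul_eq_mul]
  exact (continuous_id.matrix_det.measurable.inv).mul
    (continuous_id.matrix_adjugate.matrix_elem a b).measurable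

theorem g_meas_cay : Measurable (cay : Matrix ι ι ℝ → Matrix ι ι ℂ) := by
  have h1 : Continuous fun K : Matrix ι ι ℝ => gc K + I • (1 : Matrix ι ι ℂ) :=
    (continuous_id.matrix_map Complex.continuous_ofReal).add continuous_const
  have h2 : Continuous fun R : Matrix ι ι ℂ => 1 - (2 * I) • R := by fun_prop
  exact h2.measurable.comp (g_meas_inv.comp h1.measurable)

end Crest.Agent.R166
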