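import Crest.Agent.R166.Iface
import Crest.Agent.R164.Haar2AuxB
import Crest.Agent.R164.GConc

/-! Row 166, block G (owner helper88): invariances of Gaussian arrays and of the GOE. -/

set_option autoImplicit false

open MeasureTheory ProbabilityTheory Filter Topology Complex
open scoped ENNReal BigOperators Matrix

noncomputable section

namespace Crest.Agent.R166

open Crest.ProbabilityR.RandomMatrix

variable {α β γ δ : Type} [Fintype α] [Fintype β] [Fintype γ] [Fintype δ]

theorem g_curry : MeasurePreserving (fun (z : α × β → ℝ) a b => z (a, b)) (gpi (α × β)) (gpi2 α β) := by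
  refine ⟨by fun_prop, ?_⟩
  have := Measure.infinitePi_map_curry (fun (_ : α) (_ : β) => gaussianReal 0 1)
  simp only [Measure.infinitePi_eq_pi] at this
  exact this

theorem g_perm (π : α ≃ β) : MeasurePreserving (fun (z : β → ℝ) a => z (π a)) (gpi β) (gpi α) :=
  (measurePreserving_piCongrLeft (fun _ : β => gaussianReal 0 1) π).symm

theorem g_char (c : α → β → ℝ) :
    ∫ x, Complex.exp (((∑ a, ∑ b, c a b * x a b : ℝ) : ℂ) * I) ∂gpi2 α β =
      Complex.exp (-(((∑ a, ∑ b, c a b ^ 2 : ℝ) : ℂ) / 2)) := by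
  rw [← g_curry.map_eq, integral_map g_curry.measurable.aemeasurable (Continuous.aestronglyMeasurable (by fun_prop))]
  have := R164.ibp_char (fun p : α × β => c p.1 p.2)
  simp only [Fintype.sum_prod_type] at this
  exact this

/-- linear images with the same covariance have the same law -/
theorem g_map_eq {T T' : (α → β → ℝ) → γ → δ → ℝ} (hT : Measurable T) (hT' : Measurable T')
    (h : ∀ c : γ → δ → ℝ, ∃ d d' : α → β → ℝ, (∀ x, ∑ a, ∑ b, c a b * T x a b = ∑ a, ∑ b, d a b * x a b) ∧
      (∀ x, ∑ a, ∑ b, c a b * T' x a b = ∑ a, ∑ b, d' a b * x a b) ∧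
      ∑ a, ∑ b, d a b ^ 2 = ∑ a, ∑ b, d' a b ^ 2) : (gpi2 α β).map T = (gpi2 α β).map T' := by
  classical
  refine Measure.ext_of_charFunDual ?_
  funext L
  obtain ⟨d, d', h1, h2, h3⟩ := h fun a b => L (Pi.single a (Pi.single b 1))
  have hL : ∀ z : γ → δ → ℝ, L z = ∑ a, ∑ b, L (Pi.single a (Pi.single b 1)) * z a b := fun z => by
    have e : z = ∑ a, ∑ b, z a b • (Pi.single a (Pi.single b 1) : γ → δ → ℝ) := by
      funext a b
      simp [Finset.sum_apply, Pi.single_apply, ite_apply]
    conv_lhs => rw [e]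
    simp only [map_sum, map_smul, smul_eq_mul, mul_comm]
  rw [charFunDual_apply, charFunDual_apply, integral_map hT.aemeasurable (by fun_prop),
    integral_map hT'.aemeasurable (by fun_prop)]
  simp only [fun x => hL (T x), fun x => hL (T' x), h1, h2]
  rw [g_char, g_char, h3]

theorem g_frob (A : Matrix α β ℝ) : ∑ a, ∑ b, A a b ^ 2 = (A * Aᵀ).trace := by
  simp [Matrix.trace, Matrix.mul_apply, sq]

theorem g_pair (A B : Matrix α β ℝ) : ∑ a, ∑ b, A a b * B a b = (A * Bᵀ).trace := by
  simp [Matrix.trace, Matrix.mul_apply]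

theorem g_meas_mul {Ω 𝕜 : Type} [MeasurableSpace Ω] [RCLike 𝕜] [MeasurableSpace 𝕜] [BorelSpace 𝕜]
    {A : Ω → Matrix α β 𝕜} {B : Ω → Matrix β γ 𝕜} (hA : Measurable A) (hB : Measurable B) :
    Measurable fun ω => A ω * B ω :=
  measurable_pi_lambda _ fun a => measurable_pi_lambda _ fun _ => Finset.measurable_sum _ fun b _ =>
    ((measurable_pi_iff.1 (measurable_pi_iff.1 hA a)) b).mul (measurable_pi_iff.1 (measurable_pi_iff.1 hB b) _)

/-- rotation of the columns -/
theorem g_rot [DecidableEq α] {U : Matrix α α ℝ} (hU : U * Uᵀ = 1) :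
    MeasurePreserving (fun (y : α → β → ℝ) i b => (U * Matrix.of y) i b) (gpi2 α β) (gpi2 α β) := by
  have hm : Measurable fun (y : α → β → ℝ) i b => (U * Matrix.of y) i b := by
    simp only [Matrix.mul_apply, Matrix.of_apply]
    fun_prop
  refine ⟨hm, (g_map_eq hm measurable_id fun c => ⟨Uᵀ * Matrix.of c, c, fun x => ?_, fun x => rfl, ?_⟩).trans
    Measure.map_id⟩
  · have e1 := g_pair (Matrix.of c) (U * Matrix.of x)
    have e2 := g_pair (Uᵀ * Matrix.of c) (Matrix.of x)
    refine e1.trans (Eq.trans ?_ e2.symm)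
    rw [Matrix.transpose_mul, ← Matrix.mul_assoc, Matrix.trace_mul_comm, Matrix.mul_assoc]
  · have e2 := g_frob (Matrix.of c)
    refine (g_frob _).trans (Eq.trans ?_ e2.symm)
    rw [Matrix.transpose_mul, Matrix.transpose_transpose, Matrix.mul_assoc, Matrix.trace_mul_comm,
      Matrix.mul_assoc, Matrix.mul_assoc, hU, Matrix.mul_one]

/-- weights of the GOE matrix -/
def gth {n : ℕ} (a b : Fin n) : ℝ := if a = b then √2 / 2 else if a < b then 1 else 0

theorem gth_sq {n : ℕ} (a b : Fin n) : gth a b ^ 2 + gth b a ^ 2 = 1 := by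
  unfold gth
  rcases lt_trichotomy a b with h | rfl | h
  · simp [h, h.ne, h.ne', h.not_gt]
  · simp only [if_true, div_pow, Real.sq_sqrt zero_le_two]; norm_num
  · simp [h, h.ne, h.ne', h.not_gt]

theorem g_goe_eq {n : ℕ} (g : GOEDisorder n) (a b : Fin n) :
    goeMatrix g a b = (gth a b * g a b + gth b a * g b a) / √n := by
  unfold gth goeMatrix
  rcases lt_trichotomy a b with h | rfl | h
  · simp [h, h.ne, h.ne', h.not_gt]
  · simp only [if_true]; ring
  · simp [h, h.ne, h.ne', h.not_gt]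

theorem g_goe_symm {n : ℕ} (g : GOEDisorder n) : (goeMatrix g)ᵀ = goeMatrix g := by
  ext a b
  rw [Matrix.transpose_apply, g_goe_eq, g_goe_eq, add_comm]

theorem g_goe_cont {n : ℕ} : Continuous (goeMatrix : GOEDisorder n → Matrix (Fin n) (Fin n) ℝ) := by
  refine continuous_matrix fun a b => ?_
  simp only [g_goe_eq]
  fun_prop

theorem g_goe_meas {n : ℕ} : Measurable (goeMatrix : GOEDisorder n → Matrix (Fin n) (Fin n) ℝ) :=
  g_goe_cont.measurable

theorem g_goe_pair {n : ℕ} (c : Matrix (Fin n) (Fin n) ℝ) (g : GOEDisorder n) :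
    ∑ a, ∑ b, c a b * goeMatrix g a b = ∑ a, ∑ b, (c + cᵀ) a b * gth a b / √n * g a b := by
  simp only [g_goe_eq, add_div, mul_add, Finset.sum_add_distrib, Matrix.add_apply, Matrix.transpose_apply,
    add_mul]
  rw [Finset.sum_comm (f := fun a b => c a b * (gth b a * g b a / √n))]
  congr 1 <;> exact Finset.sum_congr rfl fun a _ => Finset.sum_congr rfl fun b _ => by ring

theorem g_goe_var {n : ℕ} (c : Matrix (Fin n) (Fin n) ℝ) :
    2 * ∑ a, ∑ b, ((c + cᵀ) a b * gth a b / √n) ^ 2 = ((c + cᵀ) * (c + cᵀ)ᵀ).trace / √n ^ 2 := by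
  rw [two_mul, ← g_frob]
  nth_rw 2 [Finset.sum_comm]
  simp only [← Finset.sum_add_distrib, Finset.sum_div]
  refine Finset.sum_congr rfl fun a _ => Finset.sum_congr rfl fun b _ => ?_
  simp only [Matrix.add_apply, Matrix.transpose_apply]
  linear_combination (c a b + c b a) ^ 2 / √n ^ 2 * gth_sq a b

/-- orthogonal invariance of the GOE -/
theorem g_goe_inv {n : ℕ} {O : Matrix (Fin n) (Fin n) ℝ} (hO : O * Oᵀ = 1) :
    (goeDisorderLaw n).map (fun g => O * goeMatrix g * Oᵀ) = (goeDisorderLaw n).map goeMatrix := by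
  refine g_map_eq (α := Fin n) (β := Fin n) (γ := Fin n) (δ := Fin n)
    (g_meas_mul (g_meas_mul measurable_const g_goe_meas) measurable_const) g_goe_meas fun c =>
      ⟨_, _, fun x => Eq.trans ?_ (g_goe_pair (Oᵀ * Matrix.of c * O) x), g_goe_pair (Matrix.of c), ?_⟩
  · refine (g_pair (Matrix.of c) _).trans (Eq.trans ?_ (g_pair _ _).symm)
    rw [Matrix.transpose_mul, Matrix.transpose_mul, Matrix.transpose_transpose, ← Matrix.mul_assoc,
      ← Matrix.mul_assoc, Matrix.trace_mul_comm]
    simp only [Matrix.mul_assoc]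
  · refine mul_left_cancel₀ two_ne_zero ?_
    rw [g_goe_var, g_goe_var]
    have e : Oᵀ * Matrix.of c * O + (Oᵀ * Matrix.of c * O)ᵀ = Oᵀ * (Matrix.of c + (Matrix.of c)ᵀ) * O := by
      simp only [Matrix.transpose_mul, Matrix.transpose_transpose, Matrix.mul_add, Matrix.add_mul,
        Matrix.mul_assoc]
    rw [e]
    generalize Matrix.of c + (Matrix.of c)ᵀ = A
    congr 1
    rw [Matrix.transpose_mul, Matrix.transpose_mul, Matrix.transpose_transpose, Matrix.mul_assoc,
      ← Matrix.mul_assoc O, hO, Matrix.one_mul, Matrix.mul_assoc, Matrix.trace_mul_comm, Matrix.mul_assoc,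
      Matrix.mul_assoc, hO, Matrix.mul_one]

instance g_goe_prob (n : ℕ) : IsProbabilityMeasure (goeDisorderLaw n) := by
  unfold goeDisorderLaw; infer_instance

section swap

variable {n : ℕ} [DecidableEq α]

/-- exchange the first row of the disorder with the probe `c` -/
def gsw (c : α) (p : GOEDisorder (n + 1) × (Fin (n + 1) → α → ℝ)) :
    GOEDisorder (n + 1) × (Fin (n + 1) → α → ℝ) :=
  (fun a b => if a = 0 then p.2 b c else p.1 a b, fun i d => if d = c then p.1 0 i else p.2 i d)

theorem g_swap (c : α) : MeasurePreserving (gsw (n := n) c)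
    ((goeDisorderLaw (n + 1)).prod (gpi2 (Fin (n + 1)) α))
    ((goeDisorderLaw (n + 1)).prod (gpi2 (Fin (n + 1)) α)) := by
  let f : (Fin (n + 1) × Fin (n + 1)) ⊕ (Fin (n + 1) × α) → (Fin (n + 1) × Fin (n + 1)) ⊕ (Fin (n + 1) × α) :=
    Sum.elim (fun q => if q.1 = 0 then Sum.inr (q.2, c) else Sum.inl q)
      (fun q => if q.2 = c then Sum.inl (0, q.1) else Sum.inr q)
  have hf : Function.Involutive f := by
    rintro (⟨a, b⟩ | ⟨i, d⟩)
    · by_cases h : a = 0 <;> simp [f, h]
    · by_cases h : d = c <;> simp [f, h]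
  have h1 := (g_curry.prod g_curry).comp
    (R164.measurePreserving_gpi_sum (Fin (n + 1) × Fin (n + 1)) (Fin (n + 1) × α))
  have h2 := h1.comp (g_perm hf.toPerm)
  have hm : Measurable (gsw (n := n) c) := by
    refine Measurable.prodMk ?_ ?_ <;> refine measurable_pi_lambda _ fun a => measurable_pi_lambda _ fun b => ?_ <;>
      split_ifs <;> fun_prop
  refine ⟨hm, ?_⟩
  refine (congrArg (Measure.map _) h1.map_eq.symm).trans ?_
  rw [Measure.map_map hm h1.measurable]
  refine Eq.trans (congrArg (Measure.map · _) ?_) h2.map_eq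
  funext z
  refine Prod.ext ?_ ?_ <;> funext a b <;> simp only [gsw, f, Function.comp, Prod.map,
    Function.Involutive.coe_toPerm, Sum.elim_inl, Sum.elim_inr] <;> split_ifs <;> rfl

end swap

/-- squared distance of the Gram matrix from the identity -/
def gD [DecidableEq β] (y : α → β → ℝ) : ℝ :=
  ∑ a, ∑ b, (∑ i, y i a * y i b - if a = b then 1 else 0) ^ 2

theorem gD_nonneg [DecidableEq β] (y : α → β → ℝ) : 0 ≤ gD y := by unfold gD; positivity

theorem g_gram [DecidableEq β] {n : ℕ} (hn : 0 < n) :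
    Integrable (fun y : Fin n → β → ℝ => gD fun i a => y i a / √n) (gpi2 (Fin n) β) ∧
      ∫ y, gD (fun i a => y i a / √n) ∂gpi2 (Fin n) β ≤ 2 * (Fintype.card β : ℝ) ^ 2 / n := by
  have : Nonempty (Fin n) := ⟨⟨0, hn⟩⟩
  have h := (g_curry (α := Fin n) (β := β)).comp (g_perm (Equiv.prodComm (Fin n) β))
  have hc : Continuous fun y : Fin n → β → ℝ => gD fun i a => y i a / √n := by unfold gD; fun_prop
  have e : ∀ (G : β × Fin n → ℝ) a b, ∑ i, G (a, i) / √n * (G (b, i) / √n) = (∑ i, G (a, i) * G (b, i)) / n :=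
    fun G a b => by
      rw [Finset.sum_div]
      exact Finset.sum_congr rfl fun i _ => by rw [div_mul_div_comm, Real.mul_self_sqrt n.cast_nonneg]
  have hent := fun a b : β => R164.h2_gram_entry (I := Fin n) a b
  simp only [Fintype.card_fin] at hent
  rw [← h.integrable_comp hc.aestronglyMeasurable, ← h.map_eq,
    integral_map h.measurable.aemeasurable hc.aestronglyMeasurable]
  simp only [Function.comp_def, gD, Equiv.prodComm_apply, Prod.swap_prod_mk, e]
  refine ⟨integrable_finsetSum _ fun a _ => integrable_finsetSum _ fun b _ => (hent a b).1, ?_⟩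
  rw [integral_finsetSum _ fun a _ => integrable_finsetSum _ fun b _ => (hent a b).1]
  calc _ ≤ ∑ _a : β, ∑ _b : β, (2 : ℝ) / n := Finset.sum_le_sum fun a _ => by
        rw [integral_finsetSum _ fun b _ => (hent a b).1]
        exact Finset.sum_le_sum fun b _ => (hent a b).2
    _ = _ := by simp only [Finset.sum_const, Finset.card_univ, nsmul_eq_mul]; ring

theorem g_sq (i : α) (a : β) : Integrable (fun y : α → β → ℝ => y i a ^ 2) (gpi2 α β) ∧
    ∫ y, y i a ^ 2 ∂gpi2 α β = 1 := by
  have h : MeasurePreserving (fun y : α → β → ℝ => y i a) (gpi2 α β) (gaussianReal 0 1) :=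
    (R164.h2_gpi_mp a).comp (measurePreserving_eval (fun _ : α => gpi β) i)
  have hc : Continuous fun x : ℝ => x ^ 2 := by fun_prop
  refine ⟨(h.integrable_comp hc.aestronglyMeasurable).2 (memLp_id_gaussianReal 2).integrable_sq, ?_⟩
  rw [← R164.h2_gauss_two, ← h.map_eq, integral_map h.measurable.aemeasurable hc.aestronglyMeasurable]

end Crest.Agent.R166
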