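import Crest.Agent.R166.G.Gauss

/-! Row 166, block G: an inverse moment of a Gaussian quadratic form. -/

set_option autoImplicit false

open MeasureTheory ProbabilityTheory Filter Topology Set
open scoped BigOperators ENNReal

noncomputable section

namespace Crest.Agent.R166

theorem g_prod_ge {ι : Type} [Fintype ι] {a : ι → ℝ} {Y u : ℝ} (hY : 0 < Y) (hu : 0 ≤ u) (h0 : ∀ i, 0 ≤ a i)
    (h1 : ∀ i, a i ≤ Y / 4) (hs : ∑ i, a i = Y) :
    ∏ i, (√(1 - 2 * -(u * a i)))⁻¹ ≤ ((1 + Y / 2 * u) ^ 2)⁻¹ := by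
  have hp : 0 < 1 + Y / 2 * u := by positivity
  rw [Finset.prod_inv_distrib]
  refine inv_anti₀ (by positivity) ?_
  have e : (1 + Y / 2 * u) ^ 2 = ∏ i, √((1 + Y / 2 * u) ^ (a i / (Y / 4))) := by
    simp only [Real.sqrt_eq_rpow, ← Real.rpow_mul hp.le]
    rw [← Real.rpow_sum_of_pos hp, ← Finset.sum_mul, ← Finset.sum_div, hs, ← Real.rpow_natCast]
    congr 1
    field_simp
    norm_num
  rw [e]
  refine Finset.prod_le_prod (fun i _ => Real.sqrt_nonneg _) fun i _ => Real.sqrt_le_sqrt ?_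
  refine (rpow_one_add_le_one_add_mul_self (by nlinarith) (div_nonneg (h0 i) (by positivity))
    ((div_le_one (by positivity)).2 (h1 i))).trans_eq ?_
  field_simp
  ring

theorem g_int_Ioi {c : ℝ} (hc : 0 < c) :
    ∫⁻ u in Ioi (0 : ℝ), ENNReal.ofReal (((1 + c * u) ^ 2)⁻¹) = ENNReal.ofReal c⁻¹ := by
  have hd : ∀ u ∈ Ici (0 : ℝ), HasDerivAt (fun u => -c⁻¹ * (1 + c * u)⁻¹) (((1 + c * u) ^ 2)⁻¹) u := by
    intro u hu
    have hp : 0 < 1 + c * u := by have : 0 ≤ u := hu; positivity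
    refine ((((hasDerivAt_id' u).const_mul c).const_add 1 |>.inv hp.ne').const_mul (-c⁻¹)).congr_deriv ?_
    field_simp
  have ht : Tendsto (fun u => -c⁻¹ * (1 + c * u)⁻¹) atTop (𝓝 (-c⁻¹ * 0)) :=
    (tendsto_inv_atTop_zero.comp (tendsto_atTop_add_const_left _ _ (tendsto_id.const_mul_atTop hc))).const_mul _
  have h0 : ∀ u ∈ Ioi (0 : ℝ), 0 ≤ ((1 + c * u) ^ 2)⁻¹ := fun u _ => by positivity
  rw [← ofReal_integral_eq_lintegral_ofReal (integrableOn_Ioi_deriv_of_nonneg' hd h0 ht)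
    (Eventually.of_forall fun u => by positivity), integral_Ioi_of_hasDerivAt_of_nonneg' hd h0 ht]
  simp

/-- `E 1/(η + ∑ aᵢ gᵢ²) ≤ 2 / ∑ aᵢ` when no weight carries more than a quarter of the mass -/
theorem g_invQ {ι : Type} [Fintype ι] {a : ι → ℝ} {Y η : ℝ} (hY : 0 < Y) (hη : 0 < η) (h0 : ∀ i, 0 ≤ a i)
    (h1 : ∀ i, a i ≤ Y / 4) (hs : ∑ i, a i = Y) :
    ∫⁻ g, ENNReal.ofReal (η + ∑ i, a i * g i ^ 2)⁻¹ ∂gpi ι ≤ ENNReal.ofReal (2 / Y) := by
  have hm : ∀ (i : ι) (u : ℝ), Measurable fun x : ℝ => ENNReal.ofReal (Real.exp (-(u * a i) * x ^ 2)) :=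
    fun i u => by fun_prop
  calc _ ≤ ∫⁻ g, (∫⁻ u in Ioi (0 : ℝ), ∏ i, ENNReal.ofReal (Real.exp (-(u * a i) * g i ^ 2))) ∂gpi ι := by
        refine lintegral_mono fun g => ?_
        have hQ : 0 ≤ ∑ i, a i * g i ^ 2 := Finset.sum_nonneg fun i _ => mul_nonneg (h0 i) (sq_nonneg _)
        have hn : -(η + ∑ i, a i * g i ^ 2) < 0 := by linarith
        have e := integral_exp_mul_Ioi hn 0
        rw [mul_zero, Real.exp_zero, neg_div_neg_eq, one_div] at e
        rw [← e, ofReal_integral_eq_lintegral_ofReal (integrableOn_exp_mul_Ioi hn 0)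
          (Eventually.of_forall fun u => (Real.exp_pos _).le)]
        refine setLIntegral_mono' measurableSet_Ioi fun u hu => ?_
        rw [← ENNReal.ofReal_prod_of_nonneg fun i _ => (Real.exp_pos _).le, ← Real.exp_sum]
        refine ENNReal.ofReal_le_ofReal (Real.exp_le_exp.2 ?_)
        have : ∑ i, -(u * a i) * g i ^ 2 = -(∑ i, a i * g i ^ 2) * u := by
          rw [neg_mul, Finset.sum_mul, ← Finset.sum_neg_distrib]
          exact Finset.sum_congr rfl fun i _ => by ring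
        rw [this]
        nlinarith [mul_pos hη hu]
    _ = ∫⁻ u in Ioi (0 : ℝ), ∫⁻ g, ∏ i, ENNReal.ofReal (Real.exp (-(u * a i) * g i ^ 2)) ∂gpi ι := by
        refine lintegral_lintegral_swap (Measurable.aemeasurable ?_)
        exact Finset.measurable_prod _ fun i _ => by fun_prop
    _ ≤ ∫⁻ u in Ioi (0 : ℝ), ENNReal.ofReal (((1 + Y / 2 * u) ^ 2)⁻¹) := by
        refine setLIntegral_mono' measurableSet_Ioi fun u hu => ?_
        have hu' : 0 ≤ u := le_of_lt hu
        have hlt : ∀ i, -(u * a i) < 1 / 2 := fun i => by nlinarith [mul_nonneg hu' (h0 i)]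
        refine (R164.GConc_fintype_prod (E := fun _ => ℝ) (fun _ => gaussianReal 0 1) _ fun i => hm i u).trans_le ?_
        have e : ∀ i, ∫⁻ x, ENNReal.ofReal (Real.exp (-(u * a i) * x ^ 2)) ∂gaussianReal 0 1 =
            ENNReal.ofReal (√(1 - 2 * -(u * a i)))⁻¹ := fun i => by
          rw [← R164.GConc_integral_sq (hlt i), ofReal_integral_eq_lintegral_ofReal (R164.GConc_int_sq (hlt i))
            (Eventually.of_forall fun u => (Real.exp_pos _).le)]
        simp only [e]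
        rw [← ENNReal.ofReal_prod_of_nonneg fun i _ => by positivity]
        exact ENNReal.ofReal_le_ofReal (g_prod_ge hY hu' h0 h1 hs)
    _ = _ := by rw [g_int_Ioi (by positivity), inv_div]

end Crest.Agent.R166
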