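import Crest.Agent.R166.G.Cay
import Crest.Agent.R166.G.InvQ

/-! Row 166, block G: the Wegner-type bound `H1` for the GOE. -/

set_option autoImplicit false

open MeasureTheory ProbabilityTheory Filter Topology Complex
open scoped BigOperators Matrix ComplexConjugate ENNReal
open Crest.ProbabilityR.RandomMatrix

noncomputable section

namespace Crest.Agent.R166

theorem g_Gr_eq {V : Type} [Fintype V] [DecidableEq V] (A : Matrix V V ℝ) (z : ℂ) :
    Gr A z = (gc A - z • (1 : Matrix V V ℂ))⁻¹ := rfl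

/-- Schur complement in the first coordinate -/
theorem g_schur {n : ℕ} {M : Matrix (Fin (n + 1)) (Fin (n + 1)) ℝ} (hM : Mᵀ = M) {z : ℂ} (hz : 0 < z.im) :
    (Gr M z).trace.im ≤ (Gr (M.submatrix Fin.succ Fin.succ) z).trace.im + z.im⁻¹ ∧
    (Gr M z 0 0).im ≤ (z.im + ((fun i : Fin n => (M 0 i.succ : ℂ)) ⬝ᵥ
      Gr (M.submatrix Fin.succ Fin.succ) z *ᵥ fun i : Fin n => (M 0 i.succ : ℂ)).im)⁻¹ := by
  have hs : ∀ a b, M b a = M a b := fun a b => congrFun (congrFun hM a) b
  have hM' : (M.submatrix Fin.succ Fin.succ)ᵀ = M.submatrix Fin.succ Fin.succ := by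
    rw [Matrix.transpose_submatrix, hM]
  have h1 := Matrix.mul_nonsing_inv _ (g_unit hM hz.ne')
  have h2 := Matrix.nonsing_inv_mul _ (g_unit hM' hz.ne')
  have h3 := Matrix.mul_nonsing_inv _ (g_unit hM' hz.ne')
  have hG : (Gr M z)ᵀ = Gr M z := by
    rw [g_Gr_eq, Matrix.transpose_nonsing_inv, Matrix.transpose_sub, Matrix.transpose_smul, Matrix.transpose_one,
      ← Matrix.transpose_map, hM]
  rw [← g_Gr_eq] at h1 h2 h3
  generalize Gr M z = G at *
  generalize Gr (M.submatrix Fin.succ Fin.succ) z = G' at *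
  obtain ⟨w, hw⟩ : ∃ w : Fin n → ℂ, w = fun i => (M 0 i.succ : ℂ) := ⟨_, rfl⟩
  rw [← hw]
  have hw' := g_ward hM' z (G' *ᵥ w)
  rw [Matrix.mulVec_mulVec, h3, Matrix.one_mulVec] at hw'
  generalize hx : G' *ᵥ w = x at *
  have r1 : ∀ c k, G k.succ c = (G' *ᵥ fun i => (1 : Matrix _ _ ℂ) i.succ c) k - G 0 c * x k := fun c k => by
    have : (fun i => (1 : Matrix _ _ ℂ) i.succ c) =
        (gc (M.submatrix Fin.succ Fin.succ) - z • (1 : Matrix _ _ ℂ)) *ᵥ (fun k => G k.succ c) + G 0 c • w := by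
      funext i
      rw [← h1, Matrix.mul_apply, Fin.sum_univ_succ, hw]
      simp [Matrix.mulVec, dotProduct, Matrix.one_apply, hs 0, mul_comm, add_comm]
    rw [this, Matrix.mulVec_add, Matrix.mulVec_mulVec, h2, Matrix.one_mulVec, Matrix.mulVec_smul, hx]
    simp
  have r2 : ∀ k, G k.succ 0 = -(G 0 0 * x k) := fun k => by
    simp [r1 0 k, Matrix.mulVec, dotProduct]
  have r3 : ∀ k, G k.succ k.succ = G' k k + G 0 0 * x k ^ 2 := fun k => by
    have : G 0 k.succ = G k.succ 0 := congrFun (congrFun hG k.succ) 0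
    rw [r1, this, r2]
    simp [Matrix.mulVec, dotProduct, Matrix.one_apply]
    ring
  have r4 : (M 0 0 - z - w ⬝ᵥ x) * G 0 0 = 1 := by
    have := congrFun (congrFun h1 0) 0
    rw [Matrix.mul_apply, Fin.sum_univ_succ] at this
    simp only [r2, Matrix.sub_apply, Matrix.smul_apply, Matrix.one_apply, gc_apply, (Fin.succ_ne_zero _).symm,
      if_true, if_false, smul_eq_mul, mul_one, mul_zero, sub_zero] at this
    rw [← this, hw, dotProduct, sub_mul, Finset.sum_mul, sub_eq_add_neg, ← Finset.sum_neg_distrib]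
    congr 1
    exact Finset.sum_congr rfl fun k _ => by ring
  have r5 : (w ⬝ᵥ x).im = z.im * ∑ k, ‖x k‖ ^ 2 := by
    rw [← neg_inj, ← hw', dotProduct, Complex.im_sum, Complex.im_sum, ← Finset.sum_neg_distrib, hw]
    exact Finset.sum_congr rfl fun k _ => by simp [mul_comm]
  have hS : 0 ≤ ∑ k, ‖x k‖ ^ 2 := by positivity
  have r6 : ‖G 0 0‖ ≤ (z.im + (w ⬝ᵥ x).im)⁻¹ := by
    have h4 : z.im + (w ⬝ᵥ x).im ≤ ‖M 0 0 - z - w ⬝ᵥ x‖ := by
      refine le_trans ?_ (Complex.abs_im_le_norm _)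
      simp only [Complex.sub_im, Complex.ofReal_im]
      linarith [neg_le_abs (0 - z.im - (w ⬝ᵥ x).im)]
    rw [eq_inv_of_mul_eq_one_right r4, norm_inv]
    exact inv_anti₀ (by rw [r5]; positivity) h4
  refine ⟨?_, ((le_abs_self _).trans (Complex.abs_im_le_norm _)).trans r6⟩
  have e : G.trace = G'.trace + G 0 0 * (1 + ∑ k, x k ^ 2) := by
    simp only [Matrix.trace, Matrix.diag, Fin.sum_univ_succ, r3, Finset.sum_add_distrib, ← Finset.mul_sum]
    ring
  rw [e, Complex.add_im]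
  refine add_le_add_right (((le_abs_self _).trans (Complex.abs_im_le_norm _)).trans ?_) _
  have h5 : ‖1 + ∑ k, x k ^ 2‖ ≤ 1 + ∑ k, ‖x k‖ ^ 2 :=
    (norm_add_le _ _).trans (add_le_add norm_one.le ((norm_sum_le _ _).trans_eq (by simp)))
  rw [norm_mul]
  refine (mul_le_mul r6 h5 (norm_nonneg _) (by rw [r5]; positivity)).trans_eq ?_
  rw [r5]
  field_simp

theorem g_spec (hE : StE) {V : Type} [Fintype V] [DecidableEq V] {A : Matrix V V ℝ} (hA : Aᵀ = A) :
    ∃ u : V → V → ℝ, (∀ i j, ∑ v, u i v * u j v = if i = j then 1 else 0) ∧ ∀ η : ℝ, 0 < η →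
      (Gr A (η * I)).trace.im = ∑ i, η / (ev A i ^ 2 + η ^ 2) ∧ ∀ w : V → ℝ,
        ((fun i => (w i : ℂ)) ⬝ᵥ Gr A (η * I) *ᵥ fun i => (w i : ℂ)).im =
          ∑ i, η / (ev A i ^ 2 + η ^ 2) * (∑ v, u i v * w v) ^ 2 := by
  obtain ⟨u, -, h1, -, h2⟩ := (hE V).2 A (by rwa [Matrix.IsHermitian, Matrix.conjTranspose_eq_transpose_of_trivial])
  refine ⟨u, h1, fun η hη => ?_⟩
  have h3 : ∀ x y, (Gr A (η * I) x y).im = ∑ i, η / (ev A i ^ 2 + η ^ 2) * (u i x * u i y) := fun x y => by
    rw [h2 _ (fun i h => hη.ne (by simpa using congrArg Complex.im h)), Complex.im_sum]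
    refine Finset.sum_congr rfl fun i _ => ?_
    rw [div_eq_mul_inv, Complex.im_ofReal_mul, Complex.inv_im, mul_comm]
    simp [Complex.normSq_apply, sq]
  refine ⟨?_, fun w => ?_⟩
  · simp only [Matrix.trace, Matrix.diag, Complex.im_sum, h3]
    rw [Finset.sum_comm]
    exact Finset.sum_congr rfl fun i _ => by rw [← Finset.mul_sum, h1, if_pos rfl, mul_one]
  · simp only [dotProduct, Matrix.mulVec, Complex.im_sum, Finset.mul_sum, Complex.im_ofReal_mul,
      Complex.im_mul_ofReal, h3, sq, Finset.sum_mul]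
    rw [Finset.sum_comm]
    refine (Finset.sum_congr rfl fun y _ => Finset.sum_comm).trans (Finset.sum_comm.trans ?_)
    exact Finset.sum_congr rfl fun i _ => Finset.sum_congr rfl fun y _ => Finset.sum_congr rfl fun x _ => by ring

theorem g_meas_Gr {V : Type} [Fintype V] [DecidableEq V] (z : ℂ) : Measurable fun A : Matrix V V ℝ => Gr A z :=
  g_meas_inv.comp ((continuous_id.matrix_map Complex.continuous_ofReal).sub continuous_const).measurable

theorem g_goe_perm {n : ℕ} (σ : Equiv.Perm (Fin n)) :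
    (goeDisorderLaw n).map (fun g => (goeMatrix g).submatrix σ σ) = (goeDisorderLaw n).map goeMatrix := by
  have h : ∀ M : Matrix (Fin n) (Fin n) ℝ, (1 : Matrix (Fin n) (Fin n) ℝ).submatrix σ (Equiv.refl _) * M *
      ((1 : Matrix (Fin n) (Fin n) ℝ).submatrix σ (Equiv.refl _))ᵀ = M.submatrix σ σ := fun M => by
    rw [Matrix.one_submatrix_mul, Matrix.transpose_submatrix, Matrix.transpose_one, Matrix.mul_submatrix_one]
    rfl
  rw [← g_goe_inv (O := (1 : Matrix (Fin n) (Fin n) ℝ).submatrix σ (Equiv.refl _))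
    (by simpa using h 1)]
  simp only [h]

/-- the diagonal entry, on the event that the trace is large -/
def gF {V : Type} [Fintype V] [DecidableEq V] (z : ℂ) (c : ℝ) (j : V) (A : Matrix V V ℝ) : ℝ≥0∞ :=
  if c < (Gr A z).trace.im then ENNReal.ofReal (Gr A z j j).im else 0

theorem g_meas_tr {V : Type} [Fintype V] [DecidableEq V] (z : ℂ) :
    Measurable fun A : Matrix V V ℝ => (Gr A z).trace.im :=
  Complex.measurable_im.comp (continuous_id.matrix_trace.measurable.comp (g_meas_Gr z))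

theorem g_meas_gF {V : Type} [Fintype V] [DecidableEq V] (z : ℂ) (c : ℝ) (j : V) : Measurable (gF z c j) :=
  Measurable.ite (measurableSet_lt measurable_const (g_meas_tr z)) (ENNReal.measurable_ofReal.comp
    (Complex.measurable_im.comp ((continuous_id.matrix_elem j j).measurable.comp (g_meas_Gr z)))) measurable_const

theorem g_gF_perm {n : ℕ} (z : ℂ) (c : ℝ) (j : Fin (n + 1)) :
    ∫⁻ g, gF z c j (goeMatrix g) ∂goeDisorderLaw (n + 1) = ∫⁻ g, gF z c 0 (goeMatrix g) ∂goeDisorderLaw (n + 1) := by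
  have hm : Measurable fun g : GOEDisorder (n + 1) => (goeMatrix g).submatrix (Equiv.swap 0 j) (Equiv.swap 0 j) :=
    (g_goe_cont.matrix_submatrix _ _).measurable
  rw [← lintegral_map (g_meas_gF z c 0) g_goe_meas, ← g_goe_perm (Equiv.swap 0 j), lintegral_map (g_meas_gF z c 0) hm]
  refine lintegral_congr fun g => ?_
  have : Gr ((goeMatrix g).submatrix (Equiv.swap 0 j) (Equiv.swap 0 j)) z =
      (Gr (goeMatrix g) z).submatrix (Equiv.swap 0 j) (Equiv.swap 0 j) := by
    rw [g_Gr_eq, g_Gr_eq, ← Matrix.inv_submatrix_equiv]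
    congr 1
    ext a b
    simp [Matrix.one_apply]
  simp only [gF, this, Matrix.trace, Matrix.diag, Matrix.submatrix_apply, Equiv.swap_apply_left]
  rw [Equiv.sum_comp (Equiv.swap 0 j) fun i => Gr (goeMatrix g) z i i]

theorem g_gF_le (hE : StE) {n : ℕ} {η C : ℝ} (hη : 0 < η) (h1 : 1 ≤ ((n + 1 : ℕ) : ℝ) * η) (hC : 5 ≤ C) :
    ∫⁻ g, gF (η * I) ((n + 1 : ℕ) * C) 0 (goeMatrix g) ∂goeDisorderLaw (n + 1) ≤ ENNReal.ofReal (2 / (C - 1)) := by
  refine (lintegral_le_of_lmarginal_le {0} ((g_meas_gF _ _ _).comp g_goe_meas) measurable_const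
    (g := fun _ => ENNReal.ofReal (2 / (C - 1))) fun g => ?_).trans_eq (by simp)
  simp only [lmarginal_singleton, lintegral_const, measure_univ, mul_one, Function.comp]
  have hM : ∀ r, (goeMatrix (Function.update g 0 r)).submatrix Fin.succ Fin.succ =
      (goeMatrix g).submatrix Fin.succ Fin.succ := fun r => by
    ext a b
    simp [goeMatrix]
  have hw : ∀ r (i : Fin n), goeMatrix (Function.update g 0 r) 0 i.succ = r i.succ / √(n + 1 : ℕ) := fun r i => by
    simp [goeMatrix, (Fin.succ_ne_zero i).symm]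
  obtain ⟨u, hu, h2⟩ := g_spec hE (A := (goeMatrix g).submatrix Fin.succ Fin.succ)
    (by rw [Matrix.transpose_submatrix, g_goe_symm])
  obtain ⟨h2, h3⟩ := h2 η hη
  have h4 := fun r => g_schur (g_goe_symm (Function.update g 0 r)) (z := η * I) (by simpa using hη)
  simp only [hM, hw, h2, h3, Complex.mul_im, Complex.ofReal_re, Complex.I_im, Complex.ofReal_im, Complex.I_re,
    mul_one, mul_zero, add_zero] at h4
  generalize ev ((goeMatrix g).submatrix Fin.succ Fin.succ) = l at *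
  have hN : (0 : ℝ) < (n + 1 : ℕ) := by positivity
  have hη' : η⁻¹ ≤ (n + 1 : ℕ) := by rwa [inv_le_iff_one_le_mul₀ hη]
  by_cases hY : ∑ i, η / (l i ^ 2 + η ^ 2) / (n + 1 : ℕ) < C - 1
  · refine (lintegral_congr fun r => if_neg (not_lt.2 ((h4 r).1.trans ?_))).trans_le (by simp)
    rw [← Finset.sum_div, div_lt_iff₀ hN] at hY
    linarith
  rw [not_lt] at hY
  have hU : Matrix.of (fun i => Fin.cons 0 (u i) : Fin n → Fin (n + 1) → ℝ) *
      (Matrix.of (fun i => Fin.cons 0 (u i) : Fin n → Fin (n + 1) → ℝ))ᵀ = 1 := by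
    ext i j
    simp [Matrix.mul_apply, Fin.sum_univ_succ, hu, Matrix.one_apply]
  refine le_trans ?_ ((g_invQ (a := fun i => η / (l i ^ 2 + η ^ 2) / (n + 1 : ℕ)) (by linarith) hη
    (fun i => by positivity) (fun i => ?_) rfl).trans (ENNReal.ofReal_le_ofReal
      (div_le_div_of_nonneg_left zero_le_two (by linarith) hY)))
  · rw [← (R164.measurePreserving_gpi_mulVec _ hU).lintegral_comp (by fun_prop)]
    refine lintegral_mono fun r => ?_
    refine (ite_le_sup _ _ _).trans (sup_le (ENNReal.ofReal_le_ofReal ((h4 r).2.trans_eq ?_)) zero_le)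
    congr 2
    refine Finset.sum_congr rfl fun i _ => ?_
    simp only [Matrix.mulVec, dotProduct, Fin.sum_univ_succ, Matrix.of_apply, Fin.cons_zero, Fin.cons_succ, zero_mul,
      zero_add, ← mul_div_assoc, ← Finset.sum_div, div_pow, Real.sq_sqrt hN.le]
    ring
  · have : η / (l i ^ 2 + η ^ 2) ≤ η⁻¹ := by
      rw [div_le_iff₀ (by positivity), le_inv_mul_iff₀ hη]
      nlinarith [sq_nonneg (l i)]
    have := (div_le_one hN).2 (this.trans hη')
    linarith

theorem g_wegner (hE : StE) {n : ℕ} {η C : ℝ} (hη : 0 < η) (h1 : 1 ≤ ((n + 1 : ℕ) : ℝ) * η) (hC : 5 ≤ C) :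
    goeDisorderLaw (n + 1) {g | (n + 1 : ℕ) * C < (Gr (goeMatrix g) (η * I)).trace.im} ≤ ENNReal.ofReal C⁻¹ := by
  have hs : MeasurableSet {g : GOEDisorder (n + 1) | (n + 1 : ℕ) * C < (Gr (goeMatrix g) (η * I)).trace.im} :=
    measurableSet_lt measurable_const ((g_meas_tr _).comp g_goe_meas)
  have hp : 0 < ((n + 1 : ℕ) : ℝ) * C := by positivity
  refine (ENNReal.mul_le_mul_iff_right (ENNReal.ofReal_pos.2 hp).ne' ENNReal.ofReal_ne_top).1 ?_
  rw [← lintegral_indicator_const hs]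
  calc _ ≤ ∫⁻ g, ∑ j, gF (η * I) ((n + 1 : ℕ) * C) j (goeMatrix g) ∂goeDisorderLaw (n + 1) := by
        refine lintegral_mono fun g => Set.indicator_apply_le' (fun hg => ?_) fun _ => zero_le
        rw [Set.mem_ofPred_eq] at hg
        simp only [gF, if_pos hg]
        refine (ENNReal.ofReal_le_ofReal (le_of_lt hg)).trans ?_
        rw [Matrix.trace, Complex.im_sum]
        exact Finset.le_sum_of_subadditive ENNReal.ofReal ENNReal.ofReal_zero.le (fun _ _ => ENNReal.ofReal_add_le) _ _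
    _ ≤ ∑ _j : Fin (n + 1), ENNReal.ofReal (2 / (C - 1)) := by
        exact (lintegral_finsetSum _ fun j _ => (g_meas_gF _ _ j).comp g_goe_meas).trans_le <| Finset.sum_le_sum
          fun j _ => (g_gF_perm _ _ j).trans_le (g_gF_le hE hη h1 hC)
    _ ≤ _ := by
        rw [Finset.sum_const, Finset.card_univ, Fintype.card_fin, ← ENNReal.ofReal_nsmul, ← ENNReal.ofReal_mul hp.le,
          nsmul_eq_mul, mul_assoc, mul_inv_cancel₀ (by positivity)]
        exact ENNReal.ofReal_le_ofReal (mul_le_mul_of_nonneg_left ((div_le_one (by linarith)).2 (by linarith))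
          (by positivity))

theorem g_meas_xi (hE : StE) (n : ℕ) :
    Measurable fun (g : GOEDisorder n) (i : Fin n) => n / Real.pi * ev (goeMatrix g) i :=
  measurable_pi_lambda _ fun i => ((measurable_pi_apply i).comp ((hE _).1.comp g_goe_meas)).const_mul _

theorem g_H1 (hE : StE) {n : ℕ → ℕ} (hn : Tendsto n atTop atTop) : H1 n fun j => goeLaw (n j) := by
  intro ε hε
  have hπ := Real.pi_pos
  have hC : 5 ≤ 5 + ε⁻¹ := le_add_of_nonneg_right (by positivity)
  refine ⟨Real.pi * (5 + ε⁻¹), (eventually_ge_atTop 1).mono fun R hR => (hn.eventually_gt_atTop 0).mono fun j => ?_⟩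
  beta_reduce
  generalize n j = N
  intro hN
  obtain ⟨m, rfl⟩ := Nat.exists_eq_succ_of_ne_zero hN.ne'
  have hN' : (0 : ℝ) < (m + 1 : ℕ) := by positivity
  have hη : 0 < Real.pi * R / (m + 1 : ℕ) := by positivity
  rw [goeLaw, Measure.map_apply (g_meas_xi hE _) (measurableSet_lt measurable_const (by fun_prop))]
  refine le_trans (measure_mono fun g hg => ?_) ((g_wegner hE hη ?_ hC).trans (ENNReal.ofReal_le_ofReal ?_))
  · obtain ⟨u, -, h⟩ := g_spec hE (g_goe_symm g)
    rw [Set.mem_ofPred_eq, (h _ hη).1]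
    refine lt_of_mul_lt_mul_left (a := Real.pi / (m + 1 : ℕ)) ?_ (by positivity)
    refine (Eq.trans_lt (by field_simp) hg).trans_eq ?_
    rw [Finset.mul_sum]
    refine Finset.sum_congr rfl fun i _ => ?_
    simp only [Nat.succ_eq_add_one]
    field_simp
  · rw [mul_div_cancel₀ _ hN'.ne']
    nlinarith [Real.pi_gt_three]
  · exact inv_le_of_inv_le₀ hε (by linarith)

end Crest.Agent.R166
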