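import Crest.Agent.R166.G.H1

/-! Row 166, block G: the model `K`-matrix of the GOE as a compression of the resolvent. -/

set_option autoImplicit false
set_option linter.unusedSectionVars false

open MeasureTheory ProbabilityTheory Filter Topology Complex
open scoped BigOperators Matrix ComplexConjugate ENNReal
open Crest.ProbabilityR.RandomMatrix

noncomputable section

namespace Crest.Agent.R166

variable {V ι : Type} [Fintype V] [DecidableEq V] [Fintype ι] [DecidableEq ι]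

theorem g_int_mp {X Y : Type} [MeasurableSpace X] [MeasurableSpace Y] {μ : Measure X} {ν : Measure Y} {T : X → Y}
    (h : MeasurePreserving T μ ν) {f : Y → ℝ} (hf : Measurable f) : ∫ x, f (T x) ∂μ = ∫ y, f y ∂ν := by
  rw [← h.map_eq, integral_map h.measurable.aemeasurable hf.aestronglyMeasurable]

theorem g_intg {X : Type} [MeasurableSpace X] (μ : Measure X) [IsFiniteMeasure μ] {f : X → ℝ} (hf : Measurable f)
    {B : ℝ} (hB : ∀ x, |f x| ≤ B) : Integrable f μ :=
  Integrable.of_bound hf.aestronglyMeasurable B (ae_of_all _ hB)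

theorem g_abs_int {X : Type} [MeasurableSpace X] {μ : Measure X} [IsProbabilityMeasure μ] {f : X → ℝ} {c : ℝ}
    (h : ∀ᵐ x ∂μ, |f x| ≤ c) : |∫ x, f x ∂μ| ≤ c :=
  (norm_integral_le_of_norm_le_const (f := f) h).trans_eq (by rw [probReal_univ, mul_one])

theorem g_markov {X : Type} [MeasurableSpace X] {μ : Measure X} [IsProbabilityMeasure μ] {f f' D : X → ℝ}
    {B ε θ : ℝ} (hf : Integrable f μ) (hf' : Integrable f' μ) (hD : Integrable D μ) (hε : 0 ≤ ε) (hθ : 0 < θ)
    (h0 : ∀ x, 0 ≤ D x) (hB : ∀ x, |f x| ≤ B) (hB' : ∀ x, |f' x| ≤ B)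
    (h : ∀ᵐ x ∂μ, D x ≤ θ → |f x - f' x| ≤ ε) : |∫ x, f x ∂μ - ∫ x, f' x ∂μ| ≤ ε + 2 * B / θ * ∫ x, D x ∂μ := by
  rw [← integral_sub hf hf', ← integral_const_mul]
  refine abs_integral_le_integral_abs.trans ((integral_mono_ae (hf.sub hf').abs
    ((integrable_const ε).add (hD.const_mul (2 * B / θ))) (h.mono fun x hx => ?_)).trans_eq ?_)
  · have hB0 : 0 ≤ B := (abs_nonneg _).trans (hB x)
    have := h0 x
    change |f x - f' x| ≤ ε + 2 * B / θ * D x
    rcases le_total (D x) θ with h1 | h1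
    · exact le_add_of_le_of_nonneg (hx h1) (by positivity)
    · have h2 : 2 * B / θ * θ ≤ 2 * B / θ * D x := by gcongr
      rw [div_mul_cancel₀ _ hθ.ne'] at h2
      linarith [abs_sub (f x) (f' x), hB x, hB' x]
  · exact (integral_add (integrable_const ε) (hD.const_mul _)).trans (by simp)

/-- `Γᵀ (M - E)⁻¹ Γ` -/
def gK (M : Matrix V V ℝ) (E : ℝ) (Γ : Matrix V ι ℝ) : Matrix ι ι ℝ := Γᵀ * (M - E • (1 : Matrix V V ℝ))⁻¹ * Γ

theorem gK_symm {M : Matrix V V ℝ} (hM : Mᵀ = M) (E : ℝ) (Γ : Matrix V ι ℝ) : (gK M E Γ)ᵀ = gK M E Γ := by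
  rw [gK, Matrix.transpose_mul, Matrix.transpose_mul, Matrix.transpose_transpose, Matrix.transpose_nonsing_inv,
    Matrix.transpose_sub, Matrix.transpose_smul, Matrix.transpose_one, hM, Matrix.mul_assoc]

theorem g_meas_gK {Ω : Type} [MeasurableSpace Ω] {M : Ω → Matrix V V ℝ} {E : Ω → ℝ} {Γ : Ω → Matrix V ι ℝ}
    (hM : Measurable M) (hE : Measurable E) (hΓ : Measurable Γ) : Measurable fun ω => gK (M ω) (E ω) (Γ ω) := by
  have h1 : Continuous fun p : Matrix V V ℝ × ℝ => p.1 - p.2 • (1 : Matrix V V ℝ) := by fun_prop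
  exact g_meas_mul (g_meas_mul (continuous_id.matrix_transpose.measurable.comp hΓ)
    (g_meas_inv.comp (h1.measurable.comp (hM.prodMk hE)))) hΓ

theorem gK_conj (M : Matrix V V ℝ) (E : ℝ) (Γ : Matrix V ι ℝ) {O : Matrix V V ℝ} (hO : O * Oᵀ = 1)
    (A : Matrix ι ι ℝ) : gK M E (Oᵀ * Γ * Aᵀ) = A * gK (O * M * Oᵀ) E Γ * Aᵀ := by
  have e : O * M * Oᵀ - E • (1 : Matrix V V ℝ) = O * (M - E • (1 : Matrix V V ℝ)) * Oᵀ := by
    rw [Matrix.mul_sub, Matrix.sub_mul, Matrix.mul_smul, Matrix.mul_one, Matrix.smul_mul, hO]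
  rw [gK, gK, e, Matrix.mul_inv_rev, Matrix.mul_inv_rev, Matrix.inv_eq_left_inv hO, Matrix.inv_eq_right_inv hO]
  simp only [Matrix.transpose_mul, Matrix.transpose_transpose, Matrix.mul_assoc]

theorem g_spec' (hE : StE) {A : Matrix V V ℝ} (hA : Aᵀ = A) : ∃ U : Matrix V V ℝ, U * Uᵀ = 1 ∧
    ∀ E : ℝ, (∀ i, ev A i ≠ E) → IsUnit (A - E • (1 : Matrix V V ℝ)).det ∧
      (A - E • (1 : Matrix V V ℝ))⁻¹ = Uᵀ * Matrix.diagonal (fun i => (ev A i - E)⁻¹) * U := by
  obtain ⟨u, h0, h1, h2, -⟩ := (hE V).2 A (by rwa [Matrix.IsHermitian, Matrix.conjTranspose_eq_transpose_of_trivial])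
  refine ⟨Matrix.of u, Matrix.ext fun i j => (h1 i j).trans Matrix.one_apply.symm, fun E hne => ?_⟩
  have h3 : (A - E • (1 : Matrix V V ℝ)) * (Matrix.of u)ᵀ =
      (Matrix.of u)ᵀ * Matrix.diagonal fun i => ev A i - E := by
    ext x i
    have := congrFun (h0 i) x
    rw [Matrix.sub_mul, Matrix.smul_mul, Matrix.one_mul, Matrix.mul_diagonal, Matrix.sub_apply]
    change (A *ᵥ u i) x - E * u i x = u i x * _
    rw [this, Pi.smul_apply, smul_eq_mul]
    ring
  have h4 : (A - E • (1 : Matrix V V ℝ)) *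
      ((Matrix.of u)ᵀ * Matrix.diagonal (fun i => (ev A i - E)⁻¹) * Matrix.of u) = 1 := by
    rw [← Matrix.mul_assoc, ← Matrix.mul_assoc, h3, Matrix.mul_assoc (Matrix.of u)ᵀ, Matrix.diagonal_mul_diagonal]
    simp only [fun i => mul_inv_cancel₀ (sub_ne_zero.2 (hne i)), Matrix.diagonal_one, Matrix.mul_one]
    exact Matrix.ext fun i j => (h2 i j).trans Matrix.one_apply.symm
  exact ⟨Matrix.isUnit_det_of_right_inverse h4, Matrix.inv_eq_right_inv h4⟩

/-- the normalised Gaussian frame -/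
def gG {n : ℕ} (y : Fin n → ι → ℝ) : Matrix (Fin n) ι ℝ := Matrix.of fun i a => y i a / √n

theorem g_meas_gG {n : ℕ} : Measurable (gG : (Fin n → ι → ℝ) → Matrix (Fin n) ι ℝ) :=
  measurable_pi_lambda _ fun i => measurable_pi_lambda _ fun a => by
    change Measurable fun y : Fin n → ι → ℝ => y i a / √n
    fun_prop

theorem g_meas_modelK {Ω : Type} [MeasurableSpace Ω] {n : ℕ} {x : Ω → Fin n → ℝ} {y : Ω → Fin n → ι → ℝ}
    (hx : Measurable x) (hy : Measurable y) : Measurable fun ω => modelK (fun x => x⁻¹) (x ω) (y ω) :=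
  measurable_pi_lambda _ fun a => measurable_pi_lambda _ fun c => by
    unfold modelK
    fun_prop

theorem g_model (hE : StE) {n : ℕ} (hn : 0 < n) {A : Matrix (Fin n) (Fin n) ℝ} (hA : Aᵀ = A)
    {F : Matrix ι ι ℂ → ℝ} (hF : Measurable F) {t : ℝ} (ht : ∀ i, ev A i ≠ Real.pi * t / n) :
    ∫ y, F (cay (modelK (fun x => x⁻¹) (fun i => n / Real.pi * ev A i - t) y)) ∂gpi2 (Fin n) ι =
      ∫ y, F (cay (gK A (Real.pi * t / n) (gG y))) ∂gpi2 (Fin n) ι := by
  obtain ⟨U, hU, h⟩ := g_spec' hE hA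
  refine (g_int_mp (g_rot hU) (hF.comp (g_meas_cay.comp (g_meas_modelK measurable_const measurable_id)))).symm.trans
    (integral_congr_ae (ae_of_all _ fun y => congrArg (fun K => F (cay K)) ?_))
  have e : gG y = (√n)⁻¹ • Matrix.of y := by
    ext i a
    simp [gG, div_eq_inv_mul]
  have e2 : (Matrix.of y)ᵀ * (Uᵀ * Matrix.diagonal (fun i => (ev A i - Real.pi * t / n)⁻¹) * U) * Matrix.of y =
      (U * Matrix.of y)ᵀ * Matrix.diagonal (fun i => (ev A i - Real.pi * t / n)⁻¹) * (U * Matrix.of y) := by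
    simp only [Matrix.transpose_mul, Matrix.mul_assoc]
  rw [gK, (h _ ht).2, e, Matrix.transpose_smul, Matrix.smul_mul, Matrix.smul_mul, Matrix.mul_smul, smul_smul, e2]
  ext a c
  rw [Matrix.smul_apply, Matrix.mul_apply, smul_eq_mul, Finset.mul_sum]
  simp only [modelK, id, Finset.mul_sum, Matrix.mul_diagonal, Matrix.transpose_apply]
  refine Finset.sum_congr rfl fun i _ => ?_
  have hn' : (0 : ℝ) < n := by positivity
  have hπ := Real.pi_pos
  have e3 : n / Real.pi * ev A i - t = n / Real.pi * (ev A i - Real.pi * t / n) := by field_simp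
  rw [e3, ← mul_inv, Real.mul_self_sqrt hn'.le, mul_inv]
  field_simp

/-- the joint law of the GOE matrix and the Gaussian frame -/
abbrev gP (n : ℕ) (ι : Type) [Fintype ι] : Measure (GOEDisorder n × (Fin n → ι → ℝ)) :=
  (goeDisorderLaw n).prod (gpi2 (Fin n) ι)

/-- expectation of `F` of the `S`-matrix at the energy `E` -/
def gA (F : Matrix ι ι ℂ → ℝ) (n : ℕ) (E : ℝ) : ℝ := ∫ p, F (cay (gK (goeMatrix p.1) E (gG p.2))) ∂gP n ι

theorem g_ae_ne {n : ℕ} (hn : 0 < n) (l : V → ℝ) : ∀ᵐ t : ℝ, ∀ i, l i ≠ Real.pi * t / n := by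
  refine ae_all_iff.2 fun i => (Measure.ae_ne volume (l i * n / Real.pi)).mono fun t ht h => ht ?_
  have hn' : (0 : ℝ) < n := by positivity
  have hπ := Real.pi_pos
  rw [h]
  field_simp

theorem g_modelE (hE : StE) {n : ℕ} (hn : 0 < n) {F : Matrix ι ι ℂ → ℝ} (hF : Continuous F) {δ : ℝ} (hδ : 0 ≤ δ) :
    IntegrableOn (fun t => gA F n (Real.pi * t / n)) (Set.Ioc 0 δ) ∧
    ∫ ξ, modelE (fun x => x⁻¹) δ F ξ ∂goeLaw n = δ⁻¹ * ∫ t in Set.Ioc 0 δ, gA F n (Real.pi * t / n) := by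
  obtain ⟨B, -, hB⟩ := g_bdd hF
  have hm : ∀ {Ω : Type} [MeasurableSpace Ω] (μ : Measure Ω) [IsFiniteMeasure μ] {g : Ω → GOEDisorder n} {t : Ω → ℝ}
      {y : Ω → Fin n → ι → ℝ}, Measurable g → Measurable t → Measurable y →
      Integrable (fun ω => F (cay (gK (goeMatrix (g ω)) (Real.pi * t ω / n) (gG (y ω))))) μ :=
    fun μ _ g t y hg ht hy => g_intg μ (hF.measurable.comp (g_meas_cay.comp (g_meas_gK (g_goe_meas.comp hg)
      (by fun_prop) (g_meas_gG.comp hy)))) fun ω => hB _ (gK_symm (g_goe_symm _) _ _)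
  refine ⟨(hm ((volume.restrict (Set.Ioc 0 δ)).prod (gP n ι)) measurable_snd.fst measurable_fst
    measurable_snd.snd).integral_prod_left, ?_⟩
  have h1 : StronglyMeasurable (modelE (n := n) (fun x => x⁻¹) δ F) := by
    unfold modelE
    simp only [intervalIntegral.integral_of_le hδ]
    refine StronglyMeasurable.const_mul (StronglyMeasurable.integral_prod_right' (f := fun p : (Fin n → ℝ) × ℝ =>
      ∫ g, F (cay (modelK (fun x => x⁻¹) (fun i => p.1 i - p.2) g)) ∂gpi2 (Fin n) ι) ?_) _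
    exact StronglyMeasurable.integral_prod_right' (f := fun p : ((Fin n → ℝ) × ℝ) × (Fin n → ι → ℝ) =>
      F (cay (modelK (fun x => x⁻¹) (fun i => p.1.1 i - p.1.2) p.2)))
      (hF.measurable.comp (g_meas_cay.comp (g_meas_modelK (by fun_prop) measurable_snd))).stronglyMeasurable
  rw [goeLaw, integral_map (g_meas_xi hE n).aemeasurable h1.aestronglyMeasurable]
  simp only [modelE, intervalIntegral.integral_of_le hδ, integral_const_mul]
  congr 1
  calc _ = ∫ g, (∫ t in Set.Ioc 0 δ, ∫ y, F (cay (gK (goeMatrix g) (Real.pi * t / n) (gG y))) ∂gpi2 (Fin n) ι)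
        ∂goeDisorderLaw n := integral_congr_ae (ae_of_all _ fun g => integral_congr_ae (ae_restrict_of_ae
          ((g_ae_ne hn _).mono fun t ht => g_model hE hn (g_goe_symm g) hF.measurable ht)))
    _ = ∫ t in Set.Ioc 0 δ, ∫ g, (∫ y, F (cay (gK (goeMatrix g) (Real.pi * t / n) (gG y))) ∂gpi2 (Fin n) ι)
        ∂goeDisorderLaw n := integral_integral_swap (hm (((goeDisorderLaw n).prod
          (volume.restrict (Set.Ioc 0 δ))).prod (gpi2 (Fin n) ι)) measurable_fst.fst measurable_fst.snd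
          measurable_snd).integral_prod_left
    _ = _ := integral_congr_ae (ae_of_all _ fun t =>
        (integral_prod _ (hm (gP n ι) measurable_fst measurable_const measurable_snd)).symm)

/-- for almost every shift, the matrix and its minor are almost surely invertible -/
theorem g_ae_unit (hE : StE) (n : ℕ) : ∀ᵐ t : ℝ, ∀ᵐ g ∂goeDisorderLaw (n + 1),
    (goeMatrix g - (Real.pi * t / (n + 1 : ℕ)) • (1 : Matrix _ _ ℝ)).det ≠ 0 ∧
    ((goeMatrix g).submatrix Fin.succ Fin.succ - (Real.pi * t / (n + 1 : ℕ)) • (1 : Matrix _ _ ℝ)).det ≠ 0 := by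
  refine (Measure.ae_ae_comm ?_).1 (ae_of_all _ fun g => ?_)
  · have := g_goe_cont (n := n + 1)
    refine IsOpen.measurableSet (IsOpen.inter (isOpen_ne_fun (Continuous.matrix_det ?_) continuous_const)
      (isOpen_ne_fun (Continuous.matrix_det ?_) continuous_const))
    · fun_prop
    · exact ((this.comp continuous_fst).matrix_submatrix _ _).sub (by fun_prop)
  · obtain ⟨U, -, h⟩ := g_spec' hE (g_goe_symm g)
    obtain ⟨U', -, h'⟩ := g_spec' hE (A := (goeMatrix g).submatrix Fin.succ Fin.succ)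
      (by rw [Matrix.transpose_submatrix, g_goe_symm])
    filter_upwards [g_ae_ne n.succ_pos (ev (goeMatrix g)),
      g_ae_ne n.succ_pos (ev ((goeMatrix g).submatrix Fin.succ Fin.succ))] with t ht ht'
    exact ⟨(h _ ht).1.ne_zero, (h' _ ht').1.ne_zero⟩

/-- the law of the `S`-matrix is almost the same for all almost orthonormal frames -/
theorem g_step1 {F : Matrix ι ι ℂ → ℝ} (hF : Continuous F) {ε : ℝ} (hε : 0 < ε) : ∃ θ : ℝ, 0 < θ ∧
    ∀ n : ℕ, Fintype.card ι ≤ n → ∀ (E : ℝ) (Γ Γ' : Matrix (Fin n) ι ℝ), gD Γ ≤ θ → gD Γ' ≤ θ →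
      |∫ g, F (cay (gK (goeMatrix g) E Γ)) ∂goeDisorderLaw n -
        ∫ g, F (cay (gK (goeMatrix g) E Γ')) ∂goeDisorderLaw n| ≤ ε := by
  obtain ⟨B, -, hB⟩ := g_bdd hF
  obtain ⟨θ, hθ, h⟩ := g_stabT hF (half_pos hε)
  refine ⟨min θ (1 / 2), by positivity, fun n hn E => ?_⟩
  obtain ⟨e⟩ : Nonempty (ι ↪ Fin n) := Function.Embedding.nonempty_of_card_le (by simpa using hn)
  have hm : ∀ Γ : Matrix (Fin n) ι ℝ, Measurable fun M : Matrix (Fin n) (Fin n) ℝ => F (cay (gK M E Γ)) := fun Γ =>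
    hF.measurable.comp (g_meas_cay.comp (g_meas_gK measurable_id measurable_const measurable_const))
  have key : ∀ Γ : Matrix (Fin n) ι ℝ, gD Γ ≤ min θ (1 / 2) →
      |∫ g, F (cay (gK (goeMatrix g) E ((1 : Matrix (Fin n) (Fin n) ℝ).submatrix id e))) ∂goeDisorderLaw n -
        ∫ g, F (cay (gK (goeMatrix g) E Γ)) ∂goeDisorderLaw n| ≤ ε / 2 := fun Γ hΓ => by
    obtain ⟨⟨O, _, hO'⟩, A, h1, h2⟩ := R164.h2_polar e (fun a i => Γ i a)
      ((hΓ.trans (min_le_right _ _)).trans_lt (by norm_num))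
    have e1 : Γ = (Matrix.of O)ᵀ * (1 : Matrix (Fin n) (Fin n) ℝ).submatrix id e * (Matrix.of A)ᵀ := by
      ext i a
      rw [h1 a i, Matrix.mul_apply]
      refine Finset.sum_congr rfl fun b _ => ?_
      simp [Matrix.mul_apply, Matrix.one_apply, mul_comm]
    have hO : Measurable fun g : GOEDisorder n => Matrix.of O * goeMatrix g * (Matrix.of O)ᵀ :=
      g_meas_mul (g_meas_mul measurable_const g_goe_meas) measurable_const
    have hs : ∀ g : GOEDisorder n, (Matrix.of O * goeMatrix g * (Matrix.of O)ᵀ)ᵀ =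
        Matrix.of O * goeMatrix g * (Matrix.of O)ᵀ := fun g => by
      rw [Matrix.transpose_mul, Matrix.transpose_mul, Matrix.transpose_transpose, g_goe_symm, Matrix.mul_assoc]
    rw [← integral_map g_goe_meas.aemeasurable (hm _).aestronglyMeasurable, ← g_goe_inv hO',
      integral_map hO.aemeasurable (hm _).aestronglyMeasurable]
    refine (congrArg _ (integral_sub (g_intg _ ((hm _).comp hO) fun g => hB _ (gK_symm (hs g) _ _))
        (g_intg _ ((hm _).comp g_goe_meas) fun g => hB _ (gK_symm (g_goe_symm g) _ _))).symm).trans_le ?_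
    refine g_abs_int (ae_of_all _ fun g => ?_)
    simp only [Function.comp]
    rw [e1, gK_conj _ _ _ hO']
    exact h _ _ (gK_symm (hs g) _ _) (h2.trans (hΓ.trans (min_le_left _ _)))
  intro Γ Γ' hΓ hΓ'
  have h1 := abs_le.1 (key Γ hΓ)
  have h2 := abs_le.1 (key Γ' hΓ')
  exact abs_le.2 ⟨by linarith, by linarith⟩

end Crest.Agent.R166
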